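import Vale.Agent.H64.Petty.Final

/-!
General zonotopes `∑ᵢ [pᵢ, qᵢ]` (Minkowski sums of segments) are translates of the centred
zonotopes `∑ᵢ [-vᵢ, vᵢ]`; translation changes neither the volume nor the projection body.
-/

namespace Vale.Agent.H64

open Set MeasureTheory Pointwise

theorem segmentSum_eq {V : Type*} [AddCommGroup V] [Module ℝ V] {n : ℕ} (p q : Fin n → V) :
    (∑ i, segment ℝ (p i) (q i)) =
      (fun x => (∑ i, (1 / 2 : ℝ) • (p i + q i)) + x) '' zonotope (fun i => (1 / 2 : ℝ) • (q i - p i)) := by
  ext x
  rw [Set.mem_finsetSum]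
  simp only [zonotope, mem_image, mem_ofPred_eq, Finset.mem_univ, forall_const]
  constructor
  · rintro ⟨g, hg, rfl⟩
    have hg' : ∀ i, ∃ θ : ℝ, θ ∈ Icc (0 : ℝ) 1 ∧ p i + θ • (q i - p i) = g i := by
      intro i
      have := @hg i
      rw [segment_eq_image'] at this
      exact this
    choose θ hθ hθg using hg'
    refine ⟨∑ i, (2 * θ i - 1) • ((1 / 2 : ℝ) • (q i - p i)),
      ⟨fun i => 2 * θ i - 1, fun i => ?_, rfl⟩, ?_⟩
    · have := hθ i
      rw [abs_le]
      constructor <;> linarith [this.1, this.2]
    · rw [← Finset.sum_add_distrib]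
      refine Finset.sum_congr rfl fun i _ => ?_
      rw [← hθg i]
      module
  · rintro ⟨y, ⟨t, ht, rfl⟩, rfl⟩
    refine ⟨fun i => p i + ((t i + 1) / 2) • (q i - p i), ?_, ?_⟩
    · intro i
      rw [segment_eq_image']
      have := abs_le.mp (ht i)
      exact ⟨(t i + 1) / 2, ⟨by linarith [this.1], by linarith [this.2]⟩, rfl⟩
    · rw [← Finset.sum_add_distrib]
      refine Finset.sum_congr rfl fun i _ => ?_
      module

section translate

variable {E : Type*} [NormedAddCommGroup E] [InnerProductSpace ℝ E] [FiniteDimensional ℝ E]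
  [MeasurableSpace E] [BorelSpace E]

theorem volume_image_add_left (c : E) (S : Set E) :
    volume ((fun x => c + x) '' S) = volume S := by
  rw [Set.image_add_left, measure_preimage_add]

theorem projVolume_image_add_left (c : E) (S : Set E) (u : E) :
    projVolume ((fun x => c + x) '' S) u = projVolume S u := by
  unfold projVolume
  have h : (ℝ ∙ u)ᗮ.orthogonalProjectionOnto '' ((fun x => c + x) '' S) =
      (fun y => (ℝ ∙ u)ᗮ.orthogonalProjectionOnto c + y) '' ((ℝ ∙ u)ᗮ.orthogonalProjectionOnto '' S) := by
    rw [image_image, image_image]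
    refine image_congr fun x _ => ?_
    simp
  rw [h, Set.image_add_left, measure_preimage_add]

theorem projBody_image_add_left (c : E) (S : Set E) :
    projBody ((fun x => c + x) '' S) = projBody S := by
  unfold projBody
  simp only [projVolume_image_add_left]

end translate

section final

variable {E : Type*} [NormedAddCommGroup E] [InnerProductSpace ℝ E] [FiniteDimensional ℝ E]
  [MeasurableSpace E] [BorelSpace E]

/-- Petty's inequality for an arbitrary zonotope with at most six generators in a Euclidean
space of dimension three. -/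
theorem petty_six_segments (h : Module.finrank ℝ E = 3) (p q : Fin 6 → E) :
    ENNReal.ofReal (3 * Real.pi ^ 2 / 4) * volume (∑ i, segment ℝ (p i) (q i)) ^ 2 ≤
        volume (projBody (∑ i, segment ℝ (p i) (q i))) ∧
      (volume (∑ i, segment ℝ (p i) (q i)) ≠ 0 →
        ENNReal.ofReal (3 * Real.pi ^ 2 / 4) * volume (∑ i, segment ℝ (p i) (q i)) ^ 2 <
          volume (projBody (∑ i, segment ℝ (p i) (q i)))) ∧
      ENNReal.ofReal (15 / 2) * volume (∑ i, segment ℝ (p i) (q i)) ^ 2 ≤
        volume (projBody (∑ i, segment ℝ (p i) (q i))) ∧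
      volume (projBody (∑ i, segment ℝ (p i) (q i))) < ⊤ := by
  obtain ⟨c, hc, hv⟩ := exists_coords h
  rw [segmentSum_eq, projBody_image_add_left, volume_image_add_left]
  exact petty_six c hc hv _

/-- `|Π Z| = 8 |Z|^2` for an arbitrary zonotope with at most five generators in a Euclidean
space of dimension three. -/
theorem projBody_five_segments (h : Module.finrank ℝ E = 3) (p q : Fin 5 → E) :
    volume (projBody (∑ i, segment ℝ (p i) (q i))) =
      8 * volume (∑ i, segment ℝ (p i) (q i)) ^ 2 := by
  obtain ⟨c, hc, hv⟩ := exists_coords h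
  rw [segmentSum_eq, projBody_image_add_left, volume_image_add_left]
  exact projBody_five c hc hv _

end final

end Vale.Agent.H64
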