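import Vale.Agent.H64.Petty.ProjBody

/-!
A counting identity: summing `|⟨a, b × c⟩|` over all pairs `b < c` and all `a` of a list counts
every triple three times.
-/

namespace Vale.Agent.H64

theorem dot3_cr3_left (a x b : Fin 3 → ℝ) : dot3 (cr3 a x) b = det3 a x b := by
  simp only [dot3, det3, cr3_0, cr3_1, cr3_2]; ring

theorem dot3_cr3_self (a x : Fin 3 → ℝ) : dot3 (cr3 a x) a = 0 := by
  simp only [dot3, cr3_0, cr3_1, cr3_2]; ring

theorem dot3_cr3_right (x b a : Fin 3 → ℝ) : dot3 (cr3 x b) a = det3 a x b := by
  simp only [dot3, det3, cr3_0, cr3_1, cr3_2]; ring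

theorem det3_self_right (a x : Fin 3 → ℝ) : det3 a x x = 0 := by
  simp only [det3]; ring

theorem abs_det3_swap (a x b : Fin 3 → ℝ) : |det3 a x b| = |det3 a b x| := by
  have : det3 a x b = -det3 a b x := by simp only [det3]; ring
  rw [this, abs_neg]

/-- The double sum of `|det3 a x b|` over all ordered pairs of a list is twice the sum over
increasing pairs. -/
theorem dsum_eq (a : Fin 3 → ℝ) (m : List (Fin 3 → ℝ)) :
    (m.map fun x => (m.map fun b => |det3 a x b|).sum).sum = 2 * P3 a m := by
  induction m with
  | nil => simp [P3]
  | cons x₀ m ih =>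
    simp only [List.map_cons, List.sum_cons, P3, det3_self_right, abs_zero, zero_add,
      List.sum_map_add, ih]
    have : (m.map fun x => |det3 a x x₀|).sum = (m.map fun b => |det3 a x₀ b|).sum := by
      congr 1
      apply List.map_congr_left
      intro x _
      exact abs_det3_swap a x x₀
    rw [this]
    ring

theorem pairs_dot (a : Fin 3 → ℝ) (m : List (Fin 3 → ℝ)) :
    ((pairsL m).map fun y => |dot3 y a|).sum = P3 a m := by
  induction m with
  | nil => simp [pairsL, P3]
  | cons x₀ m ih =>
    simp only [pairsL, List.map_append, List.sum_append, List.map_map, P3, ih]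
    congr 2
    apply List.map_congr_left
    intro x _
    simp only [Function.comp, dot3_cr3_right]

/-- Every triple is counted three times. -/
theorem tsum_eq (m : List (Fin 3 → ℝ)) :
    ((pairsL m).map fun y => (m.map fun a => |dot3 y a|).sum).sum = 3 * S3 m := by
  induction m with
  | nil => simp [pairsL, S3]
  | cons a m ih =>
    simp only [pairsL, List.map_append, List.sum_append, List.map_map, List.map_cons,
      List.sum_cons, S3, List.sum_map_add, ih, pairs_dot]
    have h2 : (m.map ((fun y : Fin 3 → ℝ => |dot3 y a| + (m.map fun b => |dot3 y b|).sum) ∘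
        cr3 a)).sum = 2 * P3 a m := by
      rw [← dsum_eq]
      congr 1
      apply List.map_congr_left
      intro x _
      have h0 : det3 a x a = 0 := by simp only [det3]; ring
      simp only [Function.comp, dot3_cr3_left, h0, abs_zero, zero_add]
    rw [h2]
    ring

end Vale.Agent.H64
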