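import Mathlib

/-!
Definitions for the statement of Petty's projection inequality:
zonotopes as Minkowski sums of segments, the volume of a hyperplane projection, and the
projection body.
-/

namespace Vale.Agent.H64

open MeasureTheory Pointwise

/-- `K` is a zonotope with at most `m` generators: the Minkowski sum of `m` (possibly degenerate)
segments `[p i, q i]`. -/
def IsSegmentSum {E : Type*} [AddCommGroup E] [Module ℝ E] (m : ℕ) (K : Set E) : Prop :=
  ∃ p q : Fin m → E, K = ∑ i, segment ℝ (p i) (q i)

/-- The `(n-1)`-dimensional volume of the orthogonal projection of `K` onto the hyperplane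
`u^⊥`, measured with the Lebesgue measure of the Euclidean space `u^⊥`. -/
noncomputable def projVolume {E : Type*} [NormedAddCommGroup E] [InnerProductSpace ℝ E]
    [FiniteDimensional ℝ E] [MeasurableSpace E] [BorelSpace E] (K : Set E) (u : E) : ENNReal :=
  (volume : Measure ((ℝ ∙ u)ᗮ : Submodule ℝ E)) ((ℝ ∙ u)ᗮ.orthogonalProjectionOnto '' K)

/-- The projection body `Π K` of `K`: the closed convex set whose support function is
`u ↦ ‖u‖ * vol_{n-1}(proj_{u^⊥} K)`, i.e. the set of all `x` with
`⟪x, u⟫ ≤ ‖u‖ * vol_{n-1}(proj_{u^⊥} K)` for every direction `u`. -/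
def projBody {E : Type*} [NormedAddCommGroup E] [InnerProductSpace ℝ E]
    [FiniteDimensional ℝ E] [MeasurableSpace E] [BorelSpace E] (K : Set E) : Set E :=
  {x | ∀ u : E, inner ℝ x u ≤ ‖u‖ * (projVolume K u).toReal}

end Vale.Agent.H64
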