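import Vale.Agent.H64.Petty.AlgPat

namespace Vale.Agent.H64

theorem alg5 (a b c d e : Fin 3 → ℝ) :
    S3 [cr3 a b, cr3 a c, cr3 a d, cr3 a e, cr3 b c, cr3 b d, cr3 b e, cr3 c d, cr3 c e, cr3 d e] = (S3 [a, b, c, d, e]) ^ 2 := by
  simp only [S3, P3, List.map_cons, List.map_nil, List.sum_cons, List.sum_nil, add_zero]
  simp only [pat_0 a b c d, pat_0 a b c e, pat_1 a b c, pat_2 a b c d, pat_2 a b c e, pat_3 a b c d, pat_3 a b c e, pat_4 a b c d e,
    pat_0 a b d e, pat_5 a b c d, pat_1 a b d, pat_2 a b d e, pat_6 a b c d, pat_7 a b c d e, pat_3 a b d e, pat_5 a b c e,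
    pat_5 a b d e, pat_1 a b e, pat_8 a b c d e, pat_6 a b c e, pat_6 a b d e, pat_9 a b c d, pat_9 a b c e, pat_10 a b c d,
    pat_10 a b c e, pat_11 a b c d e, pat_9 a b d e, pat_12 a b c d, pat_13 a b c d e, pat_10 a b d e, pat_14 a b c d e, pat_12 a b c e,
    pat_12 a b d e, pat_15 a b c d e, pat_16 a b c d e, pat_17 a b c d e, pat_0 a c d e, pat_18 a b c d, pat_19 a b c d, pat_20 a b c d e]
  simp only [pat_1 a c d, pat_2 a c d e, pat_3 a c d e, pat_18 a b c e, pat_21 a b c d e, pat_19 a b c e, pat_5 a c d e, pat_1 a c e,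
    pat_6 a c d e, pat_22 a b c d, pat_22 a b c e, pat_23 a b c d, pat_23 a b c e, pat_24 a b c d e, pat_25 a b c d e, pat_26 a b c d,
    pat_27 a b c d e, pat_28 a b c d e, pat_29 a b c d e, pat_26 a b c e, pat_30 a b c d e, pat_9 a c d e, pat_10 a c d e, pat_12 a c d e,
    pat_31 a b c d e, pat_18 a b d e, pat_19 a b d e, pat_18 a c d e, pat_19 a c d e, pat_1 a d e, pat_32 a b c d, pat_33 a b c d e,
    pat_34 a b c d, pat_35 a b c d e, pat_36 a b c d e, pat_22 a b d e, pat_37 a b c d, pat_38 a b c d e, pat_23 a b d e, pat_39 a b c d e]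
  simp only [pat_40 a b c d e, pat_26 a b d e, pat_22 a c d e, pat_23 a c d e, pat_26 a c d e, pat_41 a b c d e, pat_32 a b c e, pat_42 a b c d e,
    pat_34 a b c e, pat_43 a b c d e, pat_32 a b d e, pat_44 a b c d e, pat_45 a b c d e, pat_34 a b d e, pat_46 a b c d e, pat_37 a b c e,
    pat_37 a b d e, pat_32 a c d e, pat_34 a c d e, pat_37 a c d e, pat_0 b c d e, pat_1 b c d, pat_2 b c d e, pat_3 b c d e,
    pat_5 b c d e, pat_1 b c e, pat_6 b c d e, pat_9 b c d e, pat_10 b c d e, pat_12 b c d e, pat_18 b c d e, pat_19 b c d e,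
    pat_1 b d e, pat_22 b c d e, pat_23 b c d e, pat_26 b c d e, pat_32 b c d e, pat_34 b c d e, pat_37 b c d e, pat_1 c d e]
  ring

end Vale.Agent.H64
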