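import Vale.Agent.H64.Petty.AlgPat

namespace Vale.Agent.H64

theorem m3_0 (a b c d e f : Fin 3 → ℝ) :
    6 * (|det3 a b c| * |det3 d e f|) ≤
      |det3 (cr3 a d) (cr3 b c) (cr3 e f)| +
      |det3 (cr3 a e) (cr3 b c) (cr3 d f)| +
      |det3 (cr3 a f) (cr3 b c) (cr3 d e)| +
      |det3 (cr3 a c) (cr3 b d) (cr3 e f)| +
      |det3 (cr3 a c) (cr3 b e) (cr3 d f)| +
      |det3 (cr3 a c) (cr3 b f) (cr3 d e)| +
      |det3 (cr3 a b) (cr3 c d) (cr3 e f)| +
      |det3 (cr3 a b) (cr3 c e) (cr3 d f)| +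
      |det3 (cr3 a b) (cr3 c f) (cr3 d e)| := by
  have key : 6 * (det3 a b c * (det3 d e f)) =
      det3 (cr3 a d) (cr3 b c) (cr3 e f) - det3 (cr3 a e) (cr3 b c) (cr3 d f) + det3 (cr3 a f) (cr3 b c) (cr3 d e) + det3 (cr3 a c) (cr3 b d) (cr3 e f) - det3 (cr3 a c) (cr3 b e) (cr3 d f) + det3 (cr3 a c) (cr3 b f) (cr3 d e) - det3 (cr3 a b) (cr3 c d) (cr3 e f) + det3 (cr3 a b) (cr3 c e) (cr3 d f) - det3 (cr3 a b) (cr3 c f) (cr3 d e) := by
    simp only [det3, cr3_0, cr3_1, cr3_2]; ring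
  have hb : |6 * (det3 a b c * (det3 d e f))| ≤
      |det3 (cr3 a d) (cr3 b c) (cr3 e f)| +
      |det3 (cr3 a e) (cr3 b c) (cr3 d f)| +
      |det3 (cr3 a f) (cr3 b c) (cr3 d e)| +
      |det3 (cr3 a c) (cr3 b d) (cr3 e f)| +
      |det3 (cr3 a c) (cr3 b e) (cr3 d f)| +
      |det3 (cr3 a c) (cr3 b f) (cr3 d e)| +
      |det3 (cr3 a b) (cr3 c d) (cr3 e f)| +
      |det3 (cr3 a b) (cr3 c e) (cr3 d f)| +
      |det3 (cr3 a b) (cr3 c f) (cr3 d e)| := by
    rw [key, abs_le]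
    constructor
    · linarith [le_abs_self (det3 (cr3 a d) (cr3 b c) (cr3 e f)), neg_abs_le (det3 (cr3 a d) (cr3 b c) (cr3 e f)),
        le_abs_self (det3 (cr3 a e) (cr3 b c) (cr3 d f)), neg_abs_le (det3 (cr3 a e) (cr3 b c) (cr3 d f)),
        le_abs_self (det3 (cr3 a f) (cr3 b c) (cr3 d e)), neg_abs_le (det3 (cr3 a f) (cr3 b c) (cr3 d e)),
        le_abs_self (det3 (cr3 a c) (cr3 b d) (cr3 e f)), neg_abs_le (det3 (cr3 a c) (cr3 b d) (cr3 e f)),
        le_abs_self (det3 (cr3 a c) (cr3 b e) (cr3 d f)), neg_abs_le (det3 (cr3 a c) (cr3 b e) (cr3 d f)),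
        le_abs_self (det3 (cr3 a c) (cr3 b f) (cr3 d e)), neg_abs_le (det3 (cr3 a c) (cr3 b f) (cr3 d e)),
        le_abs_self (det3 (cr3 a b) (cr3 c d) (cr3 e f)), neg_abs_le (det3 (cr3 a b) (cr3 c d) (cr3 e f)),
        le_abs_self (det3 (cr3 a b) (cr3 c e) (cr3 d f)), neg_abs_le (det3 (cr3 a b) (cr3 c e) (cr3 d f)),
        le_abs_self (det3 (cr3 a b) (cr3 c f) (cr3 d e)), neg_abs_le (det3 (cr3 a b) (cr3 c f) (cr3 d e))]
    · linarith [le_abs_self (det3 (cr3 a d) (cr3 b c) (cr3 e f)), neg_abs_le (det3 (cr3 a d) (cr3 b c) (cr3 e f)),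
        le_abs_self (det3 (cr3 a e) (cr3 b c) (cr3 d f)), neg_abs_le (det3 (cr3 a e) (cr3 b c) (cr3 d f)),
        le_abs_self (det3 (cr3 a f) (cr3 b c) (cr3 d e)), neg_abs_le (det3 (cr3 a f) (cr3 b c) (cr3 d e)),
        le_abs_self (det3 (cr3 a c) (cr3 b d) (cr3 e f)), neg_abs_le (det3 (cr3 a c) (cr3 b d) (cr3 e f)),
        le_abs_self (det3 (cr3 a c) (cr3 b e) (cr3 d f)), neg_abs_le (det3 (cr3 a c) (cr3 b e) (cr3 d f)),
        le_abs_self (det3 (cr3 a c) (cr3 b f) (cr3 d e)), neg_abs_le (det3 (cr3 a c) (cr3 b f) (cr3 d e)),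
        le_abs_self (det3 (cr3 a b) (cr3 c d) (cr3 e f)), neg_abs_le (det3 (cr3 a b) (cr3 c d) (cr3 e f)),
        le_abs_self (det3 (cr3 a b) (cr3 c e) (cr3 d f)), neg_abs_le (det3 (cr3 a b) (cr3 c e) (cr3 d f)),
        le_abs_self (det3 (cr3 a b) (cr3 c f) (cr3 d e)), neg_abs_le (det3 (cr3 a b) (cr3 c f) (cr3 d e))]
  rwa [abs_mul, abs_mul, abs_of_pos (by norm_num : (0 : ℝ) < 6)] at hb

theorem q4_0 (a b c d e f : Fin 3 → ℝ) :
    |det3 a b c| * |det3 d e f| ≤ (|det3 a b c| + |det3 d e f|) *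
      (|det3 a b c| + |det3 a b d| + |det3 a b e| + |det3 a b f| + |det3 a c d| + |det3 a c e| + |det3 a c f| + |det3 a d e| + |det3 a d f| + |det3 a e f| + |det3 b c d| + |det3 b c e| + |det3 b c f| + |det3 b d e| + |det3 b d f| + |det3 b e f| + |det3 c d e| + |det3 c d f| + |det3 c e f| + |det3 d e f|) / 16 := by
  have e1 : |det3 a b c| ^ 2 * |det3 d e f| ≤
      (|det3 b c d| + |det3 a c d| + |det3 a b d|) *
      (|det3 b c e| + |det3 a c e| + |det3 a b e|) *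
      (|det3 b c f| + |det3 a c f| + |det3 a b f|) := by
    have h := hadam a b c d e f
    rw [adet_312 b c d, adet_132 a c d, adet_312 b c e, adet_132 a c e, adet_312 b c f, adet_132 a c f] at h
    exact h
  have e2 : |det3 d e f| ^ 2 * |det3 a b c| ≤
      (|det3 a e f| + |det3 a d f| + |det3 a d e|) *
      (|det3 b e f| + |det3 b d f| + |det3 b d e|) *
      (|det3 c e f| + |det3 c d f| + |det3 c d e|) := by
    have h := hadam d e f a b c
    rw [adet_213 a d f, adet_231 a d e, adet_213 b d f, adet_231 b d e, adet_213 c d f, adet_231 c d e] at h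
    exact h
  exact core4 _ _ _ _ _ _ _ _ _ (abs_nonneg _) (abs_nonneg _) (by positivity) (by positivity)
    (by positivity) (by positivity) (by positivity) (by positivity) (by ring) e1 e2

theorem m3_1 (a b c d e f : Fin 3 → ℝ) :
    6 * (|det3 a b d| * |det3 c e f|) ≤
      |det3 (cr3 a c) (cr3 b d) (cr3 e f)| +
      |det3 (cr3 a e) (cr3 b d) (cr3 c f)| +
      |det3 (cr3 a f) (cr3 b d) (cr3 c e)| +
      |det3 (cr3 a d) (cr3 b c) (cr3 e f)| +
      |det3 (cr3 a d) (cr3 b e) (cr3 c f)| +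
      |det3 (cr3 a d) (cr3 b f) (cr3 c e)| +
      |det3 (cr3 a b) (cr3 c d) (cr3 e f)| +
      |det3 (cr3 a b) (cr3 c f) (cr3 d e)| +
      |det3 (cr3 a b) (cr3 c e) (cr3 d f)| := by
  have key : 6 * (det3 a b d * (det3 c e f)) =
      det3 (cr3 a c) (cr3 b d) (cr3 e f) - det3 (cr3 a e) (cr3 b d) (cr3 c f) + det3 (cr3 a f) (cr3 b d) (cr3 c e) + det3 (cr3 a d) (cr3 b c) (cr3 e f) - det3 (cr3 a d) (cr3 b e) (cr3 c f) + det3 (cr3 a d) (cr3 b f) (cr3 c e) + det3 (cr3 a b) (cr3 c d) (cr3 e f) - det3 (cr3 a b) (cr3 c f) (cr3 d e) + det3 (cr3 a b) (cr3 c e) (cr3 d f) := by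
    simp only [det3, cr3_0, cr3_1, cr3_2]; ring
  have hb : |6 * (det3 a b d * (det3 c e f))| ≤
      |det3 (cr3 a c) (cr3 b d) (cr3 e f)| +
      |det3 (cr3 a e) (cr3 b d) (cr3 c f)| +
      |det3 (cr3 a f) (cr3 b d) (cr3 c e)| +
      |det3 (cr3 a d) (cr3 b c) (cr3 e f)| +
      |det3 (cr3 a d) (cr3 b e) (cr3 c f)| +
      |det3 (cr3 a d) (cr3 b f) (cr3 c e)| +
      |det3 (cr3 a b) (cr3 c d) (cr3 e f)| +
      |det3 (cr3 a b) (cr3 c f) (cr3 d e)| +
      |det3 (cr3 a b) (cr3 c e) (cr3 d f)| := by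
    rw [key, abs_le]
    constructor
    · linarith [le_abs_self (det3 (cr3 a c) (cr3 b d) (cr3 e f)), neg_abs_le (det3 (cr3 a c) (cr3 b d) (cr3 e f)),
        le_abs_self (det3 (cr3 a e) (cr3 b d) (cr3 c f)), neg_abs_le (det3 (cr3 a e) (cr3 b d) (cr3 c f)),
        le_abs_self (det3 (cr3 a f) (cr3 b d) (cr3 c e)), neg_abs_le (det3 (cr3 a f) (cr3 b d) (cr3 c e)),
        le_abs_self (det3 (cr3 a d) (cr3 b c) (cr3 e f)), neg_abs_le (det3 (cr3 a d) (cr3 b c) (cr3 e f)),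
        le_abs_self (det3 (cr3 a d) (cr3 b e) (cr3 c f)), neg_abs_le (det3 (cr3 a d) (cr3 b e) (cr3 c f)),
        le_abs_self (det3 (cr3 a d) (cr3 b f) (cr3 c e)), neg_abs_le (det3 (cr3 a d) (cr3 b f) (cr3 c e)),
        le_abs_self (det3 (cr3 a b) (cr3 c d) (cr3 e f)), neg_abs_le (det3 (cr3 a b) (cr3 c d) (cr3 e f)),
        le_abs_self (det3 (cr3 a b) (cr3 c f) (cr3 d e)), neg_abs_le (det3 (cr3 a b) (cr3 c f) (cr3 d e)),
        le_abs_self (det3 (cr3 a b) (cr3 c e) (cr3 d f)), neg_abs_le (det3 (cr3 a b) (cr3 c e) (cr3 d f))]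
    · linarith [le_abs_self (det3 (cr3 a c) (cr3 b d) (cr3 e f)), neg_abs_le (det3 (cr3 a c) (cr3 b d) (cr3 e f)),
        le_abs_self (det3 (cr3 a e) (cr3 b d) (cr3 c f)), neg_abs_le (det3 (cr3 a e) (cr3 b d) (cr3 c f)),
        le_abs_self (det3 (cr3 a f) (cr3 b d) (cr3 c e)), neg_abs_le (det3 (cr3 a f) (cr3 b d) (cr3 c e)),
        le_abs_self (det3 (cr3 a d) (cr3 b c) (cr3 e f)), neg_abs_le (det3 (cr3 a d) (cr3 b c) (cr3 e f)),
        le_abs_self (det3 (cr3 a d) (cr3 b e) (cr3 c f)), neg_abs_le (det3 (cr3 a d) (cr3 b e) (cr3 c f)),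
        le_abs_self (det3 (cr3 a d) (cr3 b f) (cr3 c e)), neg_abs_le (det3 (cr3 a d) (cr3 b f) (cr3 c e)),
        le_abs_self (det3 (cr3 a b) (cr3 c d) (cr3 e f)), neg_abs_le (det3 (cr3 a b) (cr3 c d) (cr3 e f)),
        le_abs_self (det3 (cr3 a b) (cr3 c f) (cr3 d e)), neg_abs_le (det3 (cr3 a b) (cr3 c f) (cr3 d e)),
        le_abs_self (det3 (cr3 a b) (cr3 c e) (cr3 d f)), neg_abs_le (det3 (cr3 a b) (cr3 c e) (cr3 d f))]
  rwa [abs_mul, abs_mul, abs_of_pos (by norm_num : (0 : ℝ) < 6)] at hb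

theorem q4_1 (a b c d e f : Fin 3 → ℝ) :
    |det3 a b d| * |det3 c e f| ≤ (|det3 a b d| + |det3 c e f|) *
      (|det3 a b c| + |det3 a b d| + |det3 a b e| + |det3 a b f| + |det3 a c d| + |det3 a c e| + |det3 a c f| + |det3 a d e| + |det3 a d f| + |det3 a e f| + |det3 b c d| + |det3 b c e| + |det3 b c f| + |det3 b d e| + |det3 b d f| + |det3 b e f| + |det3 c d e| + |det3 c d f| + |det3 c e f| + |det3 d e f|) / 16 := by
  have e1 : |det3 a b d| ^ 2 * |det3 c e f| ≤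
      (|det3 b c d| + |det3 a c d| + |det3 a b c|) *
      (|det3 b d e| + |det3 a d e| + |det3 a b e|) *
      (|det3 b d f| + |det3 a d f| + |det3 a b f|) := by
    have h := hadam a b d c e f
    rw [adet_213 b c d, adet_312 b d e, adet_132 a d e, adet_312 b d f, adet_132 a d f] at h
    exact h
  have e2 : |det3 c e f| ^ 2 * |det3 a b d| ≤
      (|det3 a e f| + |det3 a c f| + |det3 a c e|) *
      (|det3 b e f| + |det3 b c f| + |det3 b c e|) *
      (|det3 d e f| + |det3 c d f| + |det3 c d e|) := by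
    have h := hadam c e f a b d
    rw [adet_213 a c f, adet_231 a c e, adet_213 b c f, adet_231 b c e, adet_132 c d e] at h
    exact h
  exact core4 _ _ _ _ _ _ _ _ _ (abs_nonneg _) (abs_nonneg _) (by positivity) (by positivity)
    (by positivity) (by positivity) (by positivity) (by positivity) (by ring) e1 e2

theorem m3_2 (a b c d e f : Fin 3 → ℝ) :
    6 * (|det3 a b e| * |det3 c d f|) ≤
      |det3 (cr3 a c) (cr3 b e) (cr3 d f)| +
      |det3 (cr3 a d) (cr3 b e) (cr3 c f)| +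
      |det3 (cr3 a f) (cr3 b e) (cr3 c d)| +
      |det3 (cr3 a e) (cr3 b c) (cr3 d f)| +
      |det3 (cr3 a e) (cr3 b d) (cr3 c f)| +
      |det3 (cr3 a e) (cr3 b f) (cr3 c d)| +
      |det3 (cr3 a b) (cr3 c e) (cr3 d f)| +
      |det3 (cr3 a b) (cr3 c f) (cr3 d e)| +
      |det3 (cr3 a b) (cr3 c d) (cr3 e f)| := by
  have key : 6 * (det3 a b e * (det3 c d f)) =
      det3 (cr3 a c) (cr3 b e) (cr3 d f) - det3 (cr3 a d) (cr3 b e) (cr3 c f) + det3 (cr3 a f) (cr3 b e) (cr3 c d) + det3 (cr3 a e) (cr3 b c) (cr3 d f) - det3 (cr3 a e) (cr3 b d) (cr3 c f) + det3 (cr3 a e) (cr3 b f) (cr3 c d) + det3 (cr3 a b) (cr3 c e) (cr3 d f) + det3 (cr3 a b) (cr3 c f) (cr3 d e) + det3 (cr3 a b) (cr3 c d) (cr3 e f) := by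
    simp only [det3, cr3_0, cr3_1, cr3_2]; ring
  have hb : |6 * (det3 a b e * (det3 c d f))| ≤
      |det3 (cr3 a c) (cr3 b e) (cr3 d f)| +
      |det3 (cr3 a d) (cr3 b e) (cr3 c f)| +
      |det3 (cr3 a f) (cr3 b e) (cr3 c d)| +
      |det3 (cr3 a e) (cr3 b c) (cr3 d f)| +
      |det3 (cr3 a e) (cr3 b d) (cr3 c f)| +
      |det3 (cr3 a e) (cr3 b f) (cr3 c d)| +
      |det3 (cr3 a b) (cr3 c e) (cr3 d f)| +
      |det3 (cr3 a b) (cr3 c f) (cr3 d e)| +
      |det3 (cr3 a b) (cr3 c d) (cr3 e f)| := by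
    rw [key, abs_le]
    constructor
    · linarith [le_abs_self (det3 (cr3 a c) (cr3 b e) (cr3 d f)), neg_abs_le (det3 (cr3 a c) (cr3 b e) (cr3 d f)),
        le_abs_self (det3 (cr3 a d) (cr3 b e) (cr3 c f)), neg_abs_le (det3 (cr3 a d) (cr3 b e) (cr3 c f)),
        le_abs_self (det3 (cr3 a f) (cr3 b e) (cr3 c d)), neg_abs_le (det3 (cr3 a f) (cr3 b e) (cr3 c d)),
        le_abs_self (det3 (cr3 a e) (cr3 b c) (cr3 d f)), neg_abs_le (det3 (cr3 a e) (cr3 b c) (cr3 d f)),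
        le_abs_self (det3 (cr3 a e) (cr3 b d) (cr3 c f)), neg_abs_le (det3 (cr3 a e) (cr3 b d) (cr3 c f)),
        le_abs_self (det3 (cr3 a e) (cr3 b f) (cr3 c d)), neg_abs_le (det3 (cr3 a e) (cr3 b f) (cr3 c d)),
        le_abs_self (det3 (cr3 a b) (cr3 c e) (cr3 d f)), neg_abs_le (det3 (cr3 a b) (cr3 c e) (cr3 d f)),
        le_abs_self (det3 (cr3 a b) (cr3 c f) (cr3 d e)), neg_abs_le (det3 (cr3 a b) (cr3 c f) (cr3 d e)),
        le_abs_self (det3 (cr3 a b) (cr3 c d) (cr3 e f)), neg_abs_le (det3 (cr3 a b) (cr3 c d) (cr3 e f))]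
    · linarith [le_abs_self (det3 (cr3 a c) (cr3 b e) (cr3 d f)), neg_abs_le (det3 (cr3 a c) (cr3 b e) (cr3 d f)),
        le_abs_self (det3 (cr3 a d) (cr3 b e) (cr3 c f)), neg_abs_le (det3 (cr3 a d) (cr3 b e) (cr3 c f)),
        le_abs_self (det3 (cr3 a f) (cr3 b e) (cr3 c d)), neg_abs_le (det3 (cr3 a f) (cr3 b e) (cr3 c d)),
        le_abs_self (det3 (cr3 a e) (cr3 b c) (cr3 d f)), neg_abs_le (det3 (cr3 a e) (cr3 b c) (cr3 d f)),
        le_abs_self (det3 (cr3 a e) (cr3 b d) (cr3 c f)), neg_abs_le (det3 (cr3 a e) (cr3 b d) (cr3 c f)),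
        le_abs_self (det3 (cr3 a e) (cr3 b f) (cr3 c d)), neg_abs_le (det3 (cr3 a e) (cr3 b f) (cr3 c d)),
        le_abs_self (det3 (cr3 a b) (cr3 c e) (cr3 d f)), neg_abs_le (det3 (cr3 a b) (cr3 c e) (cr3 d f)),
        le_abs_self (det3 (cr3 a b) (cr3 c f) (cr3 d e)), neg_abs_le (det3 (cr3 a b) (cr3 c f) (cr3 d e)),
        le_abs_self (det3 (cr3 a b) (cr3 c d) (cr3 e f)), neg_abs_le (det3 (cr3 a b) (cr3 c d) (cr3 e f))]
  rwa [abs_mul, abs_mul, abs_of_pos (by norm_num : (0 : ℝ) < 6)] at hb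

theorem q4_2 (a b c d e f : Fin 3 → ℝ) :
    |det3 a b e| * |det3 c d f| ≤ (|det3 a b e| + |det3 c d f|) *
      (|det3 a b c| + |det3 a b d| + |det3 a b e| + |det3 a b f| + |det3 a c d| + |det3 a c e| + |det3 a c f| + |det3 a d e| + |det3 a d f| + |det3 a e f| + |det3 b c d| + |det3 b c e| + |det3 b c f| + |det3 b d e| + |det3 b d f| + |det3 b e f| + |det3 c d e| + |det3 c d f| + |det3 c e f| + |det3 d e f|) / 16 := by
  have e1 : |det3 a b e| ^ 2 * |det3 c d f| ≤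
      (|det3 b c e| + |det3 a c e| + |det3 a b c|) *
      (|det3 b d e| + |det3 a d e| + |det3 a b d|) *
      (|det3 b e f| + |det3 a e f| + |det3 a b f|) := by
    have h := hadam a b e c d f
    rw [adet_213 b c e, adet_213 b d e, adet_312 b e f, adet_132 a e f] at h
    exact h
  have e2 : |det3 c d f| ^ 2 * |det3 a b e| ≤
      (|det3 a d f| + |det3 a c f| + |det3 a c d|) *
      (|det3 b d f| + |det3 b c f| + |det3 b c d|) *
      (|det3 d e f| + |det3 c e f| + |det3 c d e|) := by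
    have h := hadam c d f a b e
    rw [adet_213 a c f, adet_231 a c d, adet_213 b c f, adet_231 b c d, adet_213 d e f] at h
    exact h
  exact core4 _ _ _ _ _ _ _ _ _ (abs_nonneg _) (abs_nonneg _) (by positivity) (by positivity)
    (by positivity) (by positivity) (by positivity) (by positivity) (by ring) e1 e2

theorem m3_3 (a b c d e f : Fin 3 → ℝ) :
    6 * (|det3 a b f| * |det3 c d e|) ≤
      |det3 (cr3 a c) (cr3 b f) (cr3 d e)| +
      |det3 (cr3 a d) (cr3 b f) (cr3 c e)| +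
      |det3 (cr3 a e) (cr3 b f) (cr3 c d)| +
      |det3 (cr3 a f) (cr3 b c) (cr3 d e)| +
      |det3 (cr3 a f) (cr3 b d) (cr3 c e)| +
      |det3 (cr3 a f) (cr3 b e) (cr3 c d)| +
      |det3 (cr3 a b) (cr3 c f) (cr3 d e)| +
      |det3 (cr3 a b) (cr3 c e) (cr3 d f)| +
      |det3 (cr3 a b) (cr3 c d) (cr3 e f)| := by
  have key : 6 * (det3 a b f * (det3 c d e)) =
      det3 (cr3 a c) (cr3 b f) (cr3 d e) - det3 (cr3 a d) (cr3 b f) (cr3 c e) + det3 (cr3 a e) (cr3 b f) (cr3 c d) + det3 (cr3 a f) (cr3 b c) (cr3 d e) - det3 (cr3 a f) (cr3 b d) (cr3 c e) + det3 (cr3 a f) (cr3 b e) (cr3 c d) + det3 (cr3 a b) (cr3 c f) (cr3 d e) + det3 (cr3 a b) (cr3 c e) (cr3 d f) - det3 (cr3 a b) (cr3 c d) (cr3 e f) := by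
    simp only [det3, cr3_0, cr3_1, cr3_2]; ring
  have hb : |6 * (det3 a b f * (det3 c d e))| ≤
      |det3 (cr3 a c) (cr3 b f) (cr3 d e)| +
      |det3 (cr3 a d) (cr3 b f) (cr3 c e)| +
      |det3 (cr3 a e) (cr3 b f) (cr3 c d)| +
      |det3 (cr3 a f) (cr3 b c) (cr3 d e)| +
      |det3 (cr3 a f) (cr3 b d) (cr3 c e)| +
      |det3 (cr3 a f) (cr3 b e) (cr3 c d)| +
      |det3 (cr3 a b) (cr3 c f) (cr3 d e)| +
      |det3 (cr3 a b) (cr3 c e) (cr3 d f)| +
      |det3 (cr3 a b) (cr3 c d) (cr3 e f)| := by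
    rw [key, abs_le]
    constructor
    · linarith [le_abs_self (det3 (cr3 a c) (cr3 b f) (cr3 d e)), neg_abs_le (det3 (cr3 a c) (cr3 b f) (cr3 d e)),
        le_abs_self (det3 (cr3 a d) (cr3 b f) (cr3 c e)), neg_abs_le (det3 (cr3 a d) (cr3 b f) (cr3 c e)),
        le_abs_self (det3 (cr3 a e) (cr3 b f) (cr3 c d)), neg_abs_le (det3 (cr3 a e) (cr3 b f) (cr3 c d)),
        le_abs_self (det3 (cr3 a f) (cr3 b c) (cr3 d e)), neg_abs_le (det3 (cr3 a f) (cr3 b c) (cr3 d e)),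
        le_abs_self (det3 (cr3 a f) (cr3 b d) (cr3 c e)), neg_abs_le (det3 (cr3 a f) (cr3 b d) (cr3 c e)),
        le_abs_self (det3 (cr3 a f) (cr3 b e) (cr3 c d)), neg_abs_le (det3 (cr3 a f) (cr3 b e) (cr3 c d)),
        le_abs_self (det3 (cr3 a b) (cr3 c f) (cr3 d e)), neg_abs_le (det3 (cr3 a b) (cr3 c f) (cr3 d e)),
        le_abs_self (det3 (cr3 a b) (cr3 c e) (cr3 d f)), neg_abs_le (det3 (cr3 a b) (cr3 c e) (cr3 d f)),
        le_abs_self (det3 (cr3 a b) (cr3 c d) (cr3 e f)), neg_abs_le (det3 (cr3 a b) (cr3 c d) (cr3 e f))]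
    · linarith [le_abs_self (det3 (cr3 a c) (cr3 b f) (cr3 d e)), neg_abs_le (det3 (cr3 a c) (cr3 b f) (cr3 d e)),
        le_abs_self (det3 (cr3 a d) (cr3 b f) (cr3 c e)), neg_abs_le (det3 (cr3 a d) (cr3 b f) (cr3 c e)),
        le_abs_self (det3 (cr3 a e) (cr3 b f) (cr3 c d)), neg_abs_le (det3 (cr3 a e) (cr3 b f) (cr3 c d)),
        le_abs_self (det3 (cr3 a f) (cr3 b c) (cr3 d e)), neg_abs_le (det3 (cr3 a f) (cr3 b c) (cr3 d e)),
        le_abs_self (det3 (cr3 a f) (cr3 b d) (cr3 c e)), neg_abs_le (det3 (cr3 a f) (cr3 b d) (cr3 c e)),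
        le_abs_self (det3 (cr3 a f) (cr3 b e) (cr3 c d)), neg_abs_le (det3 (cr3 a f) (cr3 b e) (cr3 c d)),
        le_abs_self (det3 (cr3 a b) (cr3 c f) (cr3 d e)), neg_abs_le (det3 (cr3 a b) (cr3 c f) (cr3 d e)),
        le_abs_self (det3 (cr3 a b) (cr3 c e) (cr3 d f)), neg_abs_le (det3 (cr3 a b) (cr3 c e) (cr3 d f)),
        le_abs_self (det3 (cr3 a b) (cr3 c d) (cr3 e f)), neg_abs_le (det3 (cr3 a b) (cr3 c d) (cr3 e f))]
  rwa [abs_mul, abs_mul, abs_of_pos (by norm_num : (0 : ℝ) < 6)] at hb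

theorem q4_3 (a b c d e f : Fin 3 → ℝ) :
    |det3 a b f| * |det3 c d e| ≤ (|det3 a b f| + |det3 c d e|) *
      (|det3 a b c| + |det3 a b d| + |det3 a b e| + |det3 a b f| + |det3 a c d| + |det3 a c e| + |det3 a c f| + |det3 a d e| + |det3 a d f| + |det3 a e f| + |det3 b c d| + |det3 b c e| + |det3 b c f| + |det3 b d e| + |det3 b d f| + |det3 b e f| + |det3 c d e| + |det3 c d f| + |det3 c e f| + |det3 d e f|) / 16 := by
  have e1 : |det3 a b f| ^ 2 * |det3 c d e| ≤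
      (|det3 b c f| + |det3 a c f| + |det3 a b c|) *
      (|det3 b d f| + |det3 a d f| + |det3 a b d|) *
      (|det3 b e f| + |det3 a e f| + |det3 a b e|) := by
    have h := hadam a b f c d e
    rw [adet_213 b c f, adet_213 b d f, adet_213 b e f] at h
    exact h
  have e2 : |det3 c d e| ^ 2 * |det3 a b f| ≤
      (|det3 a d e| + |det3 a c e| + |det3 a c d|) *
      (|det3 b d e| + |det3 b c e| + |det3 b c d|) *
      (|det3 d e f| + |det3 c e f| + |det3 c d f|) := by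
    have h := hadam c d e a b f
    rw [adet_213 a c e, adet_231 a c d, adet_213 b c e, adet_231 b c d, adet_312 d e f, adet_132 c e f] at h
    exact h
  exact core4 _ _ _ _ _ _ _ _ _ (abs_nonneg _) (abs_nonneg _) (by positivity) (by positivity)
    (by positivity) (by positivity) (by positivity) (by positivity) (by ring) e1 e2

theorem m3_4 (a b c d e f : Fin 3 → ℝ) :
    6 * (|det3 a c d| * |det3 b e f|) ≤
      |det3 (cr3 a b) (cr3 c d) (cr3 e f)| +
      |det3 (cr3 a e) (cr3 b f) (cr3 c d)| +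
      |det3 (cr3 a f) (cr3 b e) (cr3 c d)| +
      |det3 (cr3 a d) (cr3 b c) (cr3 e f)| +
      |det3 (cr3 a d) (cr3 b f) (cr3 c e)| +
      |det3 (cr3 a d) (cr3 b e) (cr3 c f)| +
      |det3 (cr3 a c) (cr3 b d) (cr3 e f)| +
      |det3 (cr3 a c) (cr3 b f) (cr3 d e)| +
      |det3 (cr3 a c) (cr3 b e) (cr3 d f)| := by
  have key : 6 * (det3 a c d * (det3 b e f)) =
      det3 (cr3 a b) (cr3 c d) (cr3 e f) + det3 (cr3 a e) (cr3 b f) (cr3 c d) - det3 (cr3 a f) (cr3 b e) (cr3 c d) - det3 (cr3 a d) (cr3 b c) (cr3 e f) + det3 (cr3 a d) (cr3 b f) (cr3 c e) - det3 (cr3 a d) (cr3 b e) (cr3 c f) + det3 (cr3 a c) (cr3 b d) (cr3 e f) - det3 (cr3 a c) (cr3 b f) (cr3 d e) + det3 (cr3 a c) (cr3 b e) (cr3 d f) := by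
    simp only [det3, cr3_0, cr3_1, cr3_2]; ring
  have hb : |6 * (det3 a c d * (det3 b e f))| ≤
      |det3 (cr3 a b) (cr3 c d) (cr3 e f)| +
      |det3 (cr3 a e) (cr3 b f) (cr3 c d)| +
      |det3 (cr3 a f) (cr3 b e) (cr3 c d)| +
      |det3 (cr3 a d) (cr3 b c) (cr3 e f)| +
      |det3 (cr3 a d) (cr3 b f) (cr3 c e)| +
      |det3 (cr3 a d) (cr3 b e) (cr3 c f)| +
      |det3 (cr3 a c) (cr3 b d) (cr3 e f)| +
      |det3 (cr3 a c) (cr3 b f) (cr3 d e)| +
      |det3 (cr3 a c) (cr3 b e) (cr3 d f)| := by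
    rw [key, abs_le]
    constructor
    · linarith [le_abs_self (det3 (cr3 a b) (cr3 c d) (cr3 e f)), neg_abs_le (det3 (cr3 a b) (cr3 c d) (cr3 e f)),
        le_abs_self (det3 (cr3 a e) (cr3 b f) (cr3 c d)), neg_abs_le (det3 (cr3 a e) (cr3 b f) (cr3 c d)),
        le_abs_self (det3 (cr3 a f) (cr3 b e) (cr3 c d)), neg_abs_le (det3 (cr3 a f) (cr3 b e) (cr3 c d)),
        le_abs_self (det3 (cr3 a d) (cr3 b c) (cr3 e f)), neg_abs_le (det3 (cr3 a d) (cr3 b c) (cr3 e f)),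
        le_abs_self (det3 (cr3 a d) (cr3 b f) (cr3 c e)), neg_abs_le (det3 (cr3 a d) (cr3 b f) (cr3 c e)),
        le_abs_self (det3 (cr3 a d) (cr3 b e) (cr3 c f)), neg_abs_le (det3 (cr3 a d) (cr3 b e) (cr3 c f)),
        le_abs_self (det3 (cr3 a c) (cr3 b d) (cr3 e f)), neg_abs_le (det3 (cr3 a c) (cr3 b d) (cr3 e f)),
        le_abs_self (det3 (cr3 a c) (cr3 b f) (cr3 d e)), neg_abs_le (det3 (cr3 a c) (cr3 b f) (cr3 d e)),
        le_abs_self (det3 (cr3 a c) (cr3 b e) (cr3 d f)), neg_abs_le (det3 (cr3 a c) (cr3 b e) (cr3 d f))]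
    · linarith [le_abs_self (det3 (cr3 a b) (cr3 c d) (cr3 e f)), neg_abs_le (det3 (cr3 a b) (cr3 c d) (cr3 e f)),
        le_abs_self (det3 (cr3 a e) (cr3 b f) (cr3 c d)), neg_abs_le (det3 (cr3 a e) (cr3 b f) (cr3 c d)),
        le_abs_self (det3 (cr3 a f) (cr3 b e) (cr3 c d)), neg_abs_le (det3 (cr3 a f) (cr3 b e) (cr3 c d)),
        le_abs_self (det3 (cr3 a d) (cr3 b c) (cr3 e f)), neg_abs_le (det3 (cr3 a d) (cr3 b c) (cr3 e f)),
        le_abs_self (det3 (cr3 a d) (cr3 b f) (cr3 c e)), neg_abs_le (det3 (cr3 a d) (cr3 b f) (cr3 c e)),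
        le_abs_self (det3 (cr3 a d) (cr3 b e) (cr3 c f)), neg_abs_le (det3 (cr3 a d) (cr3 b e) (cr3 c f)),
        le_abs_self (det3 (cr3 a c) (cr3 b d) (cr3 e f)), neg_abs_le (det3 (cr3 a c) (cr3 b d) (cr3 e f)),
        le_abs_self (det3 (cr3 a c) (cr3 b f) (cr3 d e)), neg_abs_le (det3 (cr3 a c) (cr3 b f) (cr3 d e)),
        le_abs_self (det3 (cr3 a c) (cr3 b e) (cr3 d f)), neg_abs_le (det3 (cr3 a c) (cr3 b e) (cr3 d f))]
  rwa [abs_mul, abs_mul, abs_of_pos (by norm_num : (0 : ℝ) < 6)] at hb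

theorem q4_4 (a b c d e f : Fin 3 → ℝ) :
    |det3 a c d| * |det3 b e f| ≤ (|det3 a c d| + |det3 b e f|) *
      (|det3 a b c| + |det3 a b d| + |det3 a b e| + |det3 a b f| + |det3 a c d| + |det3 a c e| + |det3 a c f| + |det3 a d e| + |det3 a d f| + |det3 a e f| + |det3 b c d| + |det3 b c e| + |det3 b c f| + |det3 b d e| + |det3 b d f| + |det3 b e f| + |det3 c d e| + |det3 c d f| + |det3 c e f| + |det3 d e f|) / 16 := by
  have e1 : |det3 a c d| ^ 2 * |det3 b e f| ≤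
      (|det3 b c d| + |det3 a b d| + |det3 a b c|) *
      (|det3 c d e| + |det3 a d e| + |det3 a c e|) *
      (|det3 c d f| + |det3 a d f| + |det3 a c f|) := by
    have h := hadam a c d b e f
    rw [adet_132 a b c, adet_312 c d e, adet_132 a d e, adet_312 c d f, adet_132 a d f] at h
    exact h
  have e2 : |det3 b e f| ^ 2 * |det3 a c d| ≤
      (|det3 a e f| + |det3 a b f| + |det3 a b e|) *
      (|det3 c e f| + |det3 b c f| + |det3 b c e|) *
      (|det3 d e f| + |det3 b d f| + |det3 b d e|) := by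
    have h := hadam b e f a c d
    rw [adet_213 a b f, adet_231 a b e, adet_132 b c e, adet_132 b d e] at h
    exact h
  exact core4 _ _ _ _ _ _ _ _ _ (abs_nonneg _) (abs_nonneg _) (by positivity) (by positivity)
    (by positivity) (by positivity) (by positivity) (by positivity) (by ring) e1 e2

theorem m3_5 (a b c d e f : Fin 3 → ℝ) :
    6 * (|det3 a c e| * |det3 b d f|) ≤
      |det3 (cr3 a b) (cr3 c e) (cr3 d f)| +
      |det3 (cr3 a d) (cr3 b f) (cr3 c e)| +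
      |det3 (cr3 a f) (cr3 b d) (cr3 c e)| +
      |det3 (cr3 a e) (cr3 b c) (cr3 d f)| +
      |det3 (cr3 a e) (cr3 b f) (cr3 c d)| +
      |det3 (cr3 a e) (cr3 b d) (cr3 c f)| +
      |det3 (cr3 a c) (cr3 b e) (cr3 d f)| +
      |det3 (cr3 a c) (cr3 b f) (cr3 d e)| +
      |det3 (cr3 a c) (cr3 b d) (cr3 e f)| := by
  have key : 6 * (det3 a c e * (det3 b d f)) =
      det3 (cr3 a b) (cr3 c e) (cr3 d f) + det3 (cr3 a d) (cr3 b f) (cr3 c e) - det3 (cr3 a f) (cr3 b d) (cr3 c e) - det3 (cr3 a e) (cr3 b c) (cr3 d f) + det3 (cr3 a e) (cr3 b f) (cr3 c d) - det3 (cr3 a e) (cr3 b d) (cr3 c f) + det3 (cr3 a c) (cr3 b e) (cr3 d f) + det3 (cr3 a c) (cr3 b f) (cr3 d e) + det3 (cr3 a c) (cr3 b d) (cr3 e f) := by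
    simp only [det3, cr3_0, cr3_1, cr3_2]; ring
  have hb : |6 * (det3 a c e * (det3 b d f))| ≤
      |det3 (cr3 a b) (cr3 c e) (cr3 d f)| +
      |det3 (cr3 a d) (cr3 b f) (cr3 c e)| +
      |det3 (cr3 a f) (cr3 b d) (cr3 c e)| +
      |det3 (cr3 a e) (cr3 b c) (cr3 d f)| +
      |det3 (cr3 a e) (cr3 b f) (cr3 c d)| +
      |det3 (cr3 a e) (cr3 b d) (cr3 c f)| +
      |det3 (cr3 a c) (cr3 b e) (cr3 d f)| +
      |det3 (cr3 a c) (cr3 b f) (cr3 d e)| +
      |det3 (cr3 a c) (cr3 b d) (cr3 e f)| := by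
    rw [key, abs_le]
    constructor
    · linarith [le_abs_self (det3 (cr3 a b) (cr3 c e) (cr3 d f)), neg_abs_le (det3 (cr3 a b) (cr3 c e) (cr3 d f)),
        le_abs_self (det3 (cr3 a d) (cr3 b f) (cr3 c e)), neg_abs_le (det3 (cr3 a d) (cr3 b f) (cr3 c e)),
        le_abs_self (det3 (cr3 a f) (cr3 b d) (cr3 c e)), neg_abs_le (det3 (cr3 a f) (cr3 b d) (cr3 c e)),
        le_abs_self (det3 (cr3 a e) (cr3 b c) (cr3 d f)), neg_abs_le (det3 (cr3 a e) (cr3 b c) (cr3 d f)),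
        le_abs_self (det3 (cr3 a e) (cr3 b f) (cr3 c d)), neg_abs_le (det3 (cr3 a e) (cr3 b f) (cr3 c d)),
        le_abs_self (det3 (cr3 a e) (cr3 b d) (cr3 c f)), neg_abs_le (det3 (cr3 a e) (cr3 b d) (cr3 c f)),
        le_abs_self (det3 (cr3 a c) (cr3 b e) (cr3 d f)), neg_abs_le (det3 (cr3 a c) (cr3 b e) (cr3 d f)),
        le_abs_self (det3 (cr3 a c) (cr3 b f) (cr3 d e)), neg_abs_le (det3 (cr3 a c) (cr3 b f) (cr3 d e)),
        le_abs_self (det3 (cr3 a c) (cr3 b d) (cr3 e f)), neg_abs_le (det3 (cr3 a c) (cr3 b d) (cr3 e f))]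
    · linarith [le_abs_self (det3 (cr3 a b) (cr3 c e) (cr3 d f)), neg_abs_le (det3 (cr3 a b) (cr3 c e) (cr3 d f)),
        le_abs_self (det3 (cr3 a d) (cr3 b f) (cr3 c e)), neg_abs_le (det3 (cr3 a d) (cr3 b f) (cr3 c e)),
        le_abs_self (det3 (cr3 a f) (cr3 b d) (cr3 c e)), neg_abs_le (det3 (cr3 a f) (cr3 b d) (cr3 c e)),
        le_abs_self (det3 (cr3 a e) (cr3 b c) (cr3 d f)), neg_abs_le (det3 (cr3 a e) (cr3 b c) (cr3 d f)),
        le_abs_self (det3 (cr3 a e) (cr3 b f) (cr3 c d)), neg_abs_le (det3 (cr3 a e) (cr3 b f) (cr3 c d)),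
        le_abs_self (det3 (cr3 a e) (cr3 b d) (cr3 c f)), neg_abs_le (det3 (cr3 a e) (cr3 b d) (cr3 c f)),
        le_abs_self (det3 (cr3 a c) (cr3 b e) (cr3 d f)), neg_abs_le (det3 (cr3 a c) (cr3 b e) (cr3 d f)),
        le_abs_self (det3 (cr3 a c) (cr3 b f) (cr3 d e)), neg_abs_le (det3 (cr3 a c) (cr3 b f) (cr3 d e)),
        le_abs_self (det3 (cr3 a c) (cr3 b d) (cr3 e f)), neg_abs_le (det3 (cr3 a c) (cr3 b d) (cr3 e f))]
  rwa [abs_mul, abs_mul, abs_of_pos (by norm_num : (0 : ℝ) < 6)] at hb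

theorem q4_5 (a b c d e f : Fin 3 → ℝ) :
    |det3 a c e| * |det3 b d f| ≤ (|det3 a c e| + |det3 b d f|) *
      (|det3 a b c| + |det3 a b d| + |det3 a b e| + |det3 a b f| + |det3 a c d| + |det3 a c e| + |det3 a c f| + |det3 a d e| + |det3 a d f| + |det3 a e f| + |det3 b c d| + |det3 b c e| + |det3 b c f| + |det3 b d e| + |det3 b d f| + |det3 b e f| + |det3 c d e| + |det3 c d f| + |det3 c e f| + |det3 d e f|) / 16 := by
  have e1 : |det3 a c e| ^ 2 * |det3 b d f| ≤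
      (|det3 b c e| + |det3 a b e| + |det3 a b c|) *
      (|det3 c d e| + |det3 a d e| + |det3 a c d|) *
      (|det3 c e f| + |det3 a e f| + |det3 a c f|) := by
    have h := hadam a c e b d f
    rw [adet_132 a b c, adet_213 c d e, adet_312 c e f, adet_132 a e f] at h
    exact h
  have e2 : |det3 b d f| ^ 2 * |det3 a c e| ≤
      (|det3 a d f| + |det3 a b f| + |det3 a b d|) *
      (|det3 c d f| + |det3 b c f| + |det3 b c d|) *
      (|det3 d e f| + |det3 b e f| + |det3 b d e|) := by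
    have h := hadam b d f a c e
    rw [adet_213 a b f, adet_231 a b d, adet_132 b c d, adet_213 d e f] at h
    exact h
  exact core4 _ _ _ _ _ _ _ _ _ (abs_nonneg _) (abs_nonneg _) (by positivity) (by positivity)
    (by positivity) (by positivity) (by positivity) (by positivity) (by ring) e1 e2

theorem m3_6 (a b c d e f : Fin 3 → ℝ) :
    6 * (|det3 a c f| * |det3 b d e|) ≤
      |det3 (cr3 a b) (cr3 c f) (cr3 d e)| +
      |det3 (cr3 a d) (cr3 b e) (cr3 c f)| +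
      |det3 (cr3 a e) (cr3 b d) (cr3 c f)| +
      |det3 (cr3 a f) (cr3 b c) (cr3 d e)| +
      |det3 (cr3 a f) (cr3 b e) (cr3 c d)| +
      |det3 (cr3 a f) (cr3 b d) (cr3 c e)| +
      |det3 (cr3 a c) (cr3 b f) (cr3 d e)| +
      |det3 (cr3 a c) (cr3 b e) (cr3 d f)| +
      |det3 (cr3 a c) (cr3 b d) (cr3 e f)| := by
  have key : 6 * (det3 a c f * (det3 b d e)) =
      det3 (cr3 a b) (cr3 c f) (cr3 d e) + det3 (cr3 a d) (cr3 b e) (cr3 c f) - det3 (cr3 a e) (cr3 b d) (cr3 c f) - det3 (cr3 a f) (cr3 b c) (cr3 d e) + det3 (cr3 a f) (cr3 b e) (cr3 c d) - det3 (cr3 a f) (cr3 b d) (cr3 c e) + det3 (cr3 a c) (cr3 b f) (cr3 d e) + det3 (cr3 a c) (cr3 b e) (cr3 d f) - det3 (cr3 a c) (cr3 b d) (cr3 e f) := by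
    simp only [det3, cr3_0, cr3_1, cr3_2]; ring
  have hb : |6 * (det3 a c f * (det3 b d e))| ≤
      |det3 (cr3 a b) (cr3 c f) (cr3 d e)| +
      |det3 (cr3 a d) (cr3 b e) (cr3 c f)| +
      |det3 (cr3 a e) (cr3 b d) (cr3 c f)| +
      |det3 (cr3 a f) (cr3 b c) (cr3 d e)| +
      |det3 (cr3 a f) (cr3 b e) (cr3 c d)| +
      |det3 (cr3 a f) (cr3 b d) (cr3 c e)| +
      |det3 (cr3 a c) (cr3 b f) (cr3 d e)| +
      |det3 (cr3 a c) (cr3 b e) (cr3 d f)| +
      |det3 (cr3 a c) (cr3 b d) (cr3 e f)| := by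
    rw [key, abs_le]
    constructor
    · linarith [le_abs_self (det3 (cr3 a b) (cr3 c f) (cr3 d e)), neg_abs_le (det3 (cr3 a b) (cr3 c f) (cr3 d e)),
        le_abs_self (det3 (cr3 a d) (cr3 b e) (cr3 c f)), neg_abs_le (det3 (cr3 a d) (cr3 b e) (cr3 c f)),
        le_abs_self (det3 (cr3 a e) (cr3 b d) (cr3 c f)), neg_abs_le (det3 (cr3 a e) (cr3 b d) (cr3 c f)),
        le_abs_self (det3 (cr3 a f) (cr3 b c) (cr3 d e)), neg_abs_le (det3 (cr3 a f) (cr3 b c) (cr3 d e)),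
        le_abs_self (det3 (cr3 a f) (cr3 b e) (cr3 c d)), neg_abs_le (det3 (cr3 a f) (cr3 b e) (cr3 c d)),
        le_abs_self (det3 (cr3 a f) (cr3 b d) (cr3 c e)), neg_abs_le (det3 (cr3 a f) (cr3 b d) (cr3 c e)),
        le_abs_self (det3 (cr3 a c) (cr3 b f) (cr3 d e)), neg_abs_le (det3 (cr3 a c) (cr3 b f) (cr3 d e)),
        le_abs_self (det3 (cr3 a c) (cr3 b e) (cr3 d f)), neg_abs_le (det3 (cr3 a c) (cr3 b e) (cr3 d f)),
        le_abs_self (det3 (cr3 a c) (cr3 b d) (cr3 e f)), neg_abs_le (det3 (cr3 a c) (cr3 b d) (cr3 e f))]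
    · linarith [le_abs_self (det3 (cr3 a b) (cr3 c f) (cr3 d e)), neg_abs_le (det3 (cr3 a b) (cr3 c f) (cr3 d e)),
        le_abs_self (det3 (cr3 a d) (cr3 b e) (cr3 c f)), neg_abs_le (det3 (cr3 a d) (cr3 b e) (cr3 c f)),
        le_abs_self (det3 (cr3 a e) (cr3 b d) (cr3 c f)), neg_abs_le (det3 (cr3 a e) (cr3 b d) (cr3 c f)),
        le_abs_self (det3 (cr3 a f) (cr3 b c) (cr3 d e)), neg_abs_le (det3 (cr3 a f) (cr3 b c) (cr3 d e)),
        le_abs_self (det3 (cr3 a f) (cr3 b e) (cr3 c d)), neg_abs_le (det3 (cr3 a f) (cr3 b e) (cr3 c d)),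
        le_abs_self (det3 (cr3 a f) (cr3 b d) (cr3 c e)), neg_abs_le (det3 (cr3 a f) (cr3 b d) (cr3 c e)),
        le_abs_self (det3 (cr3 a c) (cr3 b f) (cr3 d e)), neg_abs_le (det3 (cr3 a c) (cr3 b f) (cr3 d e)),
        le_abs_self (det3 (cr3 a c) (cr3 b e) (cr3 d f)), neg_abs_le (det3 (cr3 a c) (cr3 b e) (cr3 d f)),
        le_abs_self (det3 (cr3 a c) (cr3 b d) (cr3 e f)), neg_abs_le (det3 (cr3 a c) (cr3 b d) (cr3 e f))]
  rwa [abs_mul, abs_mul, abs_of_pos (by norm_num : (0 : ℝ) < 6)] at hb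

theorem q4_6 (a b c d e f : Fin 3 → ℝ) :
    |det3 a c f| * |det3 b d e| ≤ (|det3 a c f| + |det3 b d e|) *
      (|det3 a b c| + |det3 a b d| + |det3 a b e| + |det3 a b f| + |det3 a c d| + |det3 a c e| + |det3 a c f| + |det3 a d e| + |det3 a d f| + |det3 a e f| + |det3 b c d| + |det3 b c e| + |det3 b c f| + |det3 b d e| + |det3 b d f| + |det3 b e f| + |det3 c d e| + |det3 c d f| + |det3 c e f| + |det3 d e f|) / 16 := by
  have e1 : |det3 a c f| ^ 2 * |det3 b d e| ≤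
      (|det3 b c f| + |det3 a b f| + |det3 a b c|) *
      (|det3 c d f| + |det3 a d f| + |det3 a c d|) *
      (|det3 c e f| + |det3 a e f| + |det3 a c e|) := by
    have h := hadam a c f b d e
    rw [adet_132 a b c, adet_213 c d f, adet_213 c e f] at h
    exact h
  have e2 : |det3 b d e| ^ 2 * |det3 a c f| ≤
      (|det3 a d e| + |det3 a b e| + |det3 a b d|) *
      (|det3 c d e| + |det3 b c e| + |det3 b c d|) *
      (|det3 d e f| + |det3 b e f| + |det3 b d f|) := by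
    have h := hadam b d e a c f
    rw [adet_213 a b e, adet_231 a b d, adet_132 b c d, adet_312 d e f, adet_132 b e f] at h
    exact h
  exact core4 _ _ _ _ _ _ _ _ _ (abs_nonneg _) (abs_nonneg _) (by positivity) (by positivity)
    (by positivity) (by positivity) (by positivity) (by positivity) (by ring) e1 e2

theorem m3_7 (a b c d e f : Fin 3 → ℝ) :
    6 * (|det3 a d e| * |det3 b c f|) ≤
      |det3 (cr3 a b) (cr3 c f) (cr3 d e)| +
      |det3 (cr3 a c) (cr3 b f) (cr3 d e)| +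
      |det3 (cr3 a f) (cr3 b c) (cr3 d e)| +
      |det3 (cr3 a e) (cr3 b d) (cr3 c f)| +
      |det3 (cr3 a e) (cr3 b f) (cr3 c d)| +
      |det3 (cr3 a e) (cr3 b c) (cr3 d f)| +
      |det3 (cr3 a d) (cr3 b e) (cr3 c f)| +
      |det3 (cr3 a d) (cr3 b f) (cr3 c e)| +
      |det3 (cr3 a d) (cr3 b c) (cr3 e f)| := by
  have key : 6 * (det3 a d e * (det3 b c f)) =
      -det3 (cr3 a b) (cr3 c f) (cr3 d e) + det3 (cr3 a c) (cr3 b f) (cr3 d e) - det3 (cr3 a f) (cr3 b c) (cr3 d e) - det3 (cr3 a e) (cr3 b d) (cr3 c f) - det3 (cr3 a e) (cr3 b f) (cr3 c d) - det3 (cr3 a e) (cr3 b c) (cr3 d f) + det3 (cr3 a d) (cr3 b e) (cr3 c f) + det3 (cr3 a d) (cr3 b f) (cr3 c e) + det3 (cr3 a d) (cr3 b c) (cr3 e f) := by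
    simp only [det3, cr3_0, cr3_1, cr3_2]; ring
  have hb : |6 * (det3 a d e * (det3 b c f))| ≤
      |det3 (cr3 a b) (cr3 c f) (cr3 d e)| +
      |det3 (cr3 a c) (cr3 b f) (cr3 d e)| +
      |det3 (cr3 a f) (cr3 b c) (cr3 d e)| +
      |det3 (cr3 a e) (cr3 b d) (cr3 c f)| +
      |det3 (cr3 a e) (cr3 b f) (cr3 c d)| +
      |det3 (cr3 a e) (cr3 b c) (cr3 d f)| +
      |det3 (cr3 a d) (cr3 b e) (cr3 c f)| +
      |det3 (cr3 a d) (cr3 b f) (cr3 c e)| +
      |det3 (cr3 a d) (cr3 b c) (cr3 e f)| := by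
    rw [key, abs_le]
    constructor
    · linarith [le_abs_self (det3 (cr3 a b) (cr3 c f) (cr3 d e)), neg_abs_le (det3 (cr3 a b) (cr3 c f) (cr3 d e)),
        le_abs_self (det3 (cr3 a c) (cr3 b f) (cr3 d e)), neg_abs_le (det3 (cr3 a c) (cr3 b f) (cr3 d e)),
        le_abs_self (det3 (cr3 a f) (cr3 b c) (cr3 d e)), neg_abs_le (det3 (cr3 a f) (cr3 b c) (cr3 d e)),
        le_abs_self (det3 (cr3 a e) (cr3 b d) (cr3 c f)), neg_abs_le (det3 (cr3 a e) (cr3 b d) (cr3 c f)),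
        le_abs_self (det3 (cr3 a e) (cr3 b f) (cr3 c d)), neg_abs_le (det3 (cr3 a e) (cr3 b f) (cr3 c d)),
        le_abs_self (det3 (cr3 a e) (cr3 b c) (cr3 d f)), neg_abs_le (det3 (cr3 a e) (cr3 b c) (cr3 d f)),
        le_abs_self (det3 (cr3 a d) (cr3 b e) (cr3 c f)), neg_abs_le (det3 (cr3 a d) (cr3 b e) (cr3 c f)),
        le_abs_self (det3 (cr3 a d) (cr3 b f) (cr3 c e)), neg_abs_le (det3 (cr3 a d) (cr3 b f) (cr3 c e)),
        le_abs_self (det3 (cr3 a d) (cr3 b c) (cr3 e f)), neg_abs_le (det3 (cr3 a d) (cr3 b c) (cr3 e f))]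
    · linarith [le_abs_self (det3 (cr3 a b) (cr3 c f) (cr3 d e)), neg_abs_le (det3 (cr3 a b) (cr3 c f) (cr3 d e)),
        le_abs_self (det3 (cr3 a c) (cr3 b f) (cr3 d e)), neg_abs_le (det3 (cr3 a c) (cr3 b f) (cr3 d e)),
        le_abs_self (det3 (cr3 a f) (cr3 b c) (cr3 d e)), neg_abs_le (det3 (cr3 a f) (cr3 b c) (cr3 d e)),
        le_abs_self (det3 (cr3 a e) (cr3 b d) (cr3 c f)), neg_abs_le (det3 (cr3 a e) (cr3 b d) (cr3 c f)),
        le_abs_self (det3 (cr3 a e) (cr3 b f) (cr3 c d)), neg_abs_le (det3 (cr3 a e) (cr3 b f) (cr3 c d)),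
        le_abs_self (det3 (cr3 a e) (cr3 b c) (cr3 d f)), neg_abs_le (det3 (cr3 a e) (cr3 b c) (cr3 d f)),
        le_abs_self (det3 (cr3 a d) (cr3 b e) (cr3 c f)), neg_abs_le (det3 (cr3 a d) (cr3 b e) (cr3 c f)),
        le_abs_self (det3 (cr3 a d) (cr3 b f) (cr3 c e)), neg_abs_le (det3 (cr3 a d) (cr3 b f) (cr3 c e)),
        le_abs_self (det3 (cr3 a d) (cr3 b c) (cr3 e f)), neg_abs_le (det3 (cr3 a d) (cr3 b c) (cr3 e f))]
  rwa [abs_mul, abs_mul, abs_of_pos (by norm_num : (0 : ℝ) < 6)] at hb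

theorem q4_7 (a b c d e f : Fin 3 → ℝ) :
    |det3 a d e| * |det3 b c f| ≤ (|det3 a d e| + |det3 b c f|) *
      (|det3 a b c| + |det3 a b d| + |det3 a b e| + |det3 a b f| + |det3 a c d| + |det3 a c e| + |det3 a c f| + |det3 a d e| + |det3 a d f| + |det3 a e f| + |det3 b c d| + |det3 b c e| + |det3 b c f| + |det3 b d e| + |det3 b d f| + |det3 b e f| + |det3 c d e| + |det3 c d f| + |det3 c e f| + |det3 d e f|) / 16 := by
  have e1 : |det3 a d e| ^ 2 * |det3 b c f| ≤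
      (|det3 b d e| + |det3 a b e| + |det3 a b d|) *
      (|det3 c d e| + |det3 a c e| + |det3 a c d|) *
      (|det3 d e f| + |det3 a e f| + |det3 a d f|) := by
    have h := hadam a d e b c f
    rw [adet_132 a b d, adet_132 a c d, adet_312 d e f, adet_132 a e f] at h
    exact h
  have e2 : |det3 b c f| ^ 2 * |det3 a d e| ≤
      (|det3 a c f| + |det3 a b f| + |det3 a b c|) *
      (|det3 c d f| + |det3 b d f| + |det3 b c d|) *
      (|det3 c e f| + |det3 b e f| + |det3 b c e|) := by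
    have h := hadam b c f a d e
    rw [adet_213 a b f, adet_231 a b c, adet_213 c d f, adet_213 c e f] at h
    exact h
  exact core4 _ _ _ _ _ _ _ _ _ (abs_nonneg _) (abs_nonneg _) (by positivity) (by positivity)
    (by positivity) (by positivity) (by positivity) (by positivity) (by ring) e1 e2

theorem m3_8 (a b c d e f : Fin 3 → ℝ) :
    6 * (|det3 a d f| * |det3 b c e|) ≤
      |det3 (cr3 a b) (cr3 c e) (cr3 d f)| +
      |det3 (cr3 a c) (cr3 b e) (cr3 d f)| +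
      |det3 (cr3 a e) (cr3 b c) (cr3 d f)| +
      |det3 (cr3 a f) (cr3 b d) (cr3 c e)| +
      |det3 (cr3 a f) (cr3 b e) (cr3 c d)| +
      |det3 (cr3 a f) (cr3 b c) (cr3 d e)| +
      |det3 (cr3 a d) (cr3 b f) (cr3 c e)| +
      |det3 (cr3 a d) (cr3 b e) (cr3 c f)| +
      |det3 (cr3 a d) (cr3 b c) (cr3 e f)| := by
  have key : 6 * (det3 a d f * (det3 b c e)) =
      -det3 (cr3 a b) (cr3 c e) (cr3 d f) + det3 (cr3 a c) (cr3 b e) (cr3 d f) - det3 (cr3 a e) (cr3 b c) (cr3 d f) - det3 (cr3 a f) (cr3 b d) (cr3 c e) - det3 (cr3 a f) (cr3 b e) (cr3 c d) - det3 (cr3 a f) (cr3 b c) (cr3 d e) + det3 (cr3 a d) (cr3 b f) (cr3 c e) + det3 (cr3 a d) (cr3 b e) (cr3 c f) - det3 (cr3 a d) (cr3 b c) (cr3 e f) := by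
    simp only [det3, cr3_0, cr3_1, cr3_2]; ring
  have hb : |6 * (det3 a d f * (det3 b c e))| ≤
      |det3 (cr3 a b) (cr3 c e) (cr3 d f)| +
      |det3 (cr3 a c) (cr3 b e) (cr3 d f)| +
      |det3 (cr3 a e) (cr3 b c) (cr3 d f)| +
      |det3 (cr3 a f) (cr3 b d) (cr3 c e)| +
      |det3 (cr3 a f) (cr3 b e) (cr3 c d)| +
      |det3 (cr3 a f) (cr3 b c) (cr3 d e)| +
      |det3 (cr3 a d) (cr3 b f) (cr3 c e)| +
      |det3 (cr3 a d) (cr3 b e) (cr3 c f)| +
      |det3 (cr3 a d) (cr3 b c) (cr3 e f)| := by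
    rw [key, abs_le]
    constructor
    · linarith [le_abs_self (det3 (cr3 a b) (cr3 c e) (cr3 d f)), neg_abs_le (det3 (cr3 a b) (cr3 c e) (cr3 d f)),
        le_abs_self (det3 (cr3 a c) (cr3 b e) (cr3 d f)), neg_abs_le (det3 (cr3 a c) (cr3 b e) (cr3 d f)),
        le_abs_self (det3 (cr3 a e) (cr3 b c) (cr3 d f)), neg_abs_le (det3 (cr3 a e) (cr3 b c) (cr3 d f)),
        le_abs_self (det3 (cr3 a f) (cr3 b d) (cr3 c e)), neg_abs_le (det3 (cr3 a f) (cr3 b d) (cr3 c e)),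
        le_abs_self (det3 (cr3 a f) (cr3 b e) (cr3 c d)), neg_abs_le (det3 (cr3 a f) (cr3 b e) (cr3 c d)),
        le_abs_self (det3 (cr3 a f) (cr3 b c) (cr3 d e)), neg_abs_le (det3 (cr3 a f) (cr3 b c) (cr3 d e)),
        le_abs_self (det3 (cr3 a d) (cr3 b f) (cr3 c e)), neg_abs_le (det3 (cr3 a d) (cr3 b f) (cr3 c e)),
        le_abs_self (det3 (cr3 a d) (cr3 b e) (cr3 c f)), neg_abs_le (det3 (cr3 a d) (cr3 b e) (cr3 c f)),
        le_abs_self (det3 (cr3 a d) (cr3 b c) (cr3 e f)), neg_abs_le (det3 (cr3 a d) (cr3 b c) (cr3 e f))]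
    · linarith [le_abs_self (det3 (cr3 a b) (cr3 c e) (cr3 d f)), neg_abs_le (det3 (cr3 a b) (cr3 c e) (cr3 d f)),
        le_abs_self (det3 (cr3 a c) (cr3 b e) (cr3 d f)), neg_abs_le (det3 (cr3 a c) (cr3 b e) (cr3 d f)),
        le_abs_self (det3 (cr3 a e) (cr3 b c) (cr3 d f)), neg_abs_le (det3 (cr3 a e) (cr3 b c) (cr3 d f)),
        le_abs_self (det3 (cr3 a f) (cr3 b d) (cr3 c e)), neg_abs_le (det3 (cr3 a f) (cr3 b d) (cr3 c e)),
        le_abs_self (det3 (cr3 a f) (cr3 b e) (cr3 c d)), neg_abs_le (det3 (cr3 a f) (cr3 b e) (cr3 c d)),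
        le_abs_self (det3 (cr3 a f) (cr3 b c) (cr3 d e)), neg_abs_le (det3 (cr3 a f) (cr3 b c) (cr3 d e)),
        le_abs_self (det3 (cr3 a d) (cr3 b f) (cr3 c e)), neg_abs_le (det3 (cr3 a d) (cr3 b f) (cr3 c e)),
        le_abs_self (det3 (cr3 a d) (cr3 b e) (cr3 c f)), neg_abs_le (det3 (cr3 a d) (cr3 b e) (cr3 c f)),
        le_abs_self (det3 (cr3 a d) (cr3 b c) (cr3 e f)), neg_abs_le (det3 (cr3 a d) (cr3 b c) (cr3 e f))]
  rwa [abs_mul, abs_mul, abs_of_pos (by norm_num : (0 : ℝ) < 6)] at hb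

theorem q4_8 (a b c d e f : Fin 3 → ℝ) :
    |det3 a d f| * |det3 b c e| ≤ (|det3 a d f| + |det3 b c e|) *
      (|det3 a b c| + |det3 a b d| + |det3 a b e| + |det3 a b f| + |det3 a c d| + |det3 a c e| + |det3 a c f| + |det3 a d e| + |det3 a d f| + |det3 a e f| + |det3 b c d| + |det3 b c e| + |det3 b c f| + |det3 b d e| + |det3 b d f| + |det3 b e f| + |det3 c d e| + |det3 c d f| + |det3 c e f| + |det3 d e f|) / 16 := by
  have e1 : |det3 a d f| ^ 2 * |det3 b c e| ≤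
      (|det3 b d f| + |det3 a b f| + |det3 a b d|) *
      (|det3 c d f| + |det3 a c f| + |det3 a c d|) *
      (|det3 d e f| + |det3 a e f| + |det3 a d e|) := by
    have h := hadam a d f b c e
    rw [adet_132 a b d, adet_132 a c d, adet_213 d e f] at h
    exact h
  have e2 : |det3 b c e| ^ 2 * |det3 a d f| ≤
      (|det3 a c e| + |det3 a b e| + |det3 a b c|) *
      (|det3 c d e| + |det3 b d e| + |det3 b c d|) *
      (|det3 c e f| + |det3 b e f| + |det3 b c f|) := by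
    have h := hadam b c e a d f
    rw [adet_213 a b e, adet_231 a b c, adet_213 c d e, adet_312 c e f, adet_132 b e f] at h
    exact h
  exact core4 _ _ _ _ _ _ _ _ _ (abs_nonneg _) (abs_nonneg _) (by positivity) (by positivity)
    (by positivity) (by positivity) (by positivity) (by positivity) (by ring) e1 e2

theorem m3_9 (a b c d e f : Fin 3 → ℝ) :
    6 * (|det3 a e f| * |det3 b c d|) ≤
      |det3 (cr3 a b) (cr3 c d) (cr3 e f)| +
      |det3 (cr3 a c) (cr3 b d) (cr3 e f)| +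
      |det3 (cr3 a d) (cr3 b c) (cr3 e f)| +
      |det3 (cr3 a f) (cr3 b e) (cr3 c d)| +
      |det3 (cr3 a f) (cr3 b d) (cr3 c e)| +
      |det3 (cr3 a f) (cr3 b c) (cr3 d e)| +
      |det3 (cr3 a e) (cr3 b f) (cr3 c d)| +
      |det3 (cr3 a e) (cr3 b d) (cr3 c f)| +
      |det3 (cr3 a e) (cr3 b c) (cr3 d f)| := by
  have key : 6 * (det3 a e f * (det3 b c d)) =
      -det3 (cr3 a b) (cr3 c d) (cr3 e f) + det3 (cr3 a c) (cr3 b d) (cr3 e f) - det3 (cr3 a d) (cr3 b c) (cr3 e f) - det3 (cr3 a f) (cr3 b e) (cr3 c d) - det3 (cr3 a f) (cr3 b d) (cr3 c e) + det3 (cr3 a f) (cr3 b c) (cr3 d e) + det3 (cr3 a e) (cr3 b f) (cr3 c d) + det3 (cr3 a e) (cr3 b d) (cr3 c f) - det3 (cr3 a e) (cr3 b c) (cr3 d f) := by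
    simp only [det3, cr3_0, cr3_1, cr3_2]; ring
  have hb : |6 * (det3 a e f * (det3 b c d))| ≤
      |det3 (cr3 a b) (cr3 c d) (cr3 e f)| +
      |det3 (cr3 a c) (cr3 b d) (cr3 e f)| +
      |det3 (cr3 a d) (cr3 b c) (cr3 e f)| +
      |det3 (cr3 a f) (cr3 b e) (cr3 c d)| +
      |det3 (cr3 a f) (cr3 b d) (cr3 c e)| +
      |det3 (cr3 a f) (cr3 b c) (cr3 d e)| +
      |det3 (cr3 a e) (cr3 b f) (cr3 c d)| +
      |det3 (cr3 a e) (cr3 b d) (cr3 c f)| +
      |det3 (cr3 a e) (cr3 b c) (cr3 d f)| := by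
    rw [key, abs_le]
    constructor
    · linarith [le_abs_self (det3 (cr3 a b) (cr3 c d) (cr3 e f)), neg_abs_le (det3 (cr3 a b) (cr3 c d) (cr3 e f)),
        le_abs_self (det3 (cr3 a c) (cr3 b d) (cr3 e f)), neg_abs_le (det3 (cr3 a c) (cr3 b d) (cr3 e f)),
        le_abs_self (det3 (cr3 a d) (cr3 b c) (cr3 e f)), neg_abs_le (det3 (cr3 a d) (cr3 b c) (cr3 e f)),
        le_abs_self (det3 (cr3 a f) (cr3 b e) (cr3 c d)), neg_abs_le (det3 (cr3 a f) (cr3 b e) (cr3 c d)),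
        le_abs_self (det3 (cr3 a f) (cr3 b d) (cr3 c e)), neg_abs_le (det3 (cr3 a f) (cr3 b d) (cr3 c e)),
        le_abs_self (det3 (cr3 a f) (cr3 b c) (cr3 d e)), neg_abs_le (det3 (cr3 a f) (cr3 b c) (cr3 d e)),
        le_abs_self (det3 (cr3 a e) (cr3 b f) (cr3 c d)), neg_abs_le (det3 (cr3 a e) (cr3 b f) (cr3 c d)),
        le_abs_self (det3 (cr3 a e) (cr3 b d) (cr3 c f)), neg_abs_le (det3 (cr3 a e) (cr3 b d) (cr3 c f)),
        le_abs_self (det3 (cr3 a e) (cr3 b c) (cr3 d f)), neg_abs_le (det3 (cr3 a e) (cr3 b c) (cr3 d f))]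
    · linarith [le_abs_self (det3 (cr3 a b) (cr3 c d) (cr3 e f)), neg_abs_le (det3 (cr3 a b) (cr3 c d) (cr3 e f)),
        le_abs_self (det3 (cr3 a c) (cr3 b d) (cr3 e f)), neg_abs_le (det3 (cr3 a c) (cr3 b d) (cr3 e f)),
        le_abs_self (det3 (cr3 a d) (cr3 b c) (cr3 e f)), neg_abs_le (det3 (cr3 a d) (cr3 b c) (cr3 e f)),
        le_abs_self (det3 (cr3 a f) (cr3 b e) (cr3 c d)), neg_abs_le (det3 (cr3 a f) (cr3 b e) (cr3 c d)),
        le_abs_self (det3 (cr3 a f) (cr3 b d) (cr3 c e)), neg_abs_le (det3 (cr3 a f) (cr3 b d) (cr3 c e)),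
        le_abs_self (det3 (cr3 a f) (cr3 b c) (cr3 d e)), neg_abs_le (det3 (cr3 a f) (cr3 b c) (cr3 d e)),
        le_abs_self (det3 (cr3 a e) (cr3 b f) (cr3 c d)), neg_abs_le (det3 (cr3 a e) (cr3 b f) (cr3 c d)),
        le_abs_self (det3 (cr3 a e) (cr3 b d) (cr3 c f)), neg_abs_le (det3 (cr3 a e) (cr3 b d) (cr3 c f)),
        le_abs_self (det3 (cr3 a e) (cr3 b c) (cr3 d f)), neg_abs_le (det3 (cr3 a e) (cr3 b c) (cr3 d f))]
  rwa [abs_mul, abs_mul, abs_of_pos (by norm_num : (0 : ℝ) < 6)] at hb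

theorem q4_9 (a b c d e f : Fin 3 → ℝ) :
    |det3 a e f| * |det3 b c d| ≤ (|det3 a e f| + |det3 b c d|) *
      (|det3 a b c| + |det3 a b d| + |det3 a b e| + |det3 a b f| + |det3 a c d| + |det3 a c e| + |det3 a c f| + |det3 a d e| + |det3 a d f| + |det3 a e f| + |det3 b c d| + |det3 b c e| + |det3 b c f| + |det3 b d e| + |det3 b d f| + |det3 b e f| + |det3 c d e| + |det3 c d f| + |det3 c e f| + |det3 d e f|) / 16 := by
  have e1 : |det3 a e f| ^ 2 * |det3 b c d| ≤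
      (|det3 b e f| + |det3 a b f| + |det3 a b e|) *
      (|det3 c e f| + |det3 a c f| + |det3 a c e|) *
      (|det3 d e f| + |det3 a d f| + |det3 a d e|) := by
    have h := hadam a e f b c d
    rw [adet_132 a b e, adet_132 a c e, adet_132 a d e] at h
    exact h
  have e2 : |det3 b c d| ^ 2 * |det3 a e f| ≤
      (|det3 a c d| + |det3 a b d| + |det3 a b c|) *
      (|det3 c d e| + |det3 b d e| + |det3 b c e|) *
      (|det3 c d f| + |det3 b d f| + |det3 b c f|) := by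
    have h := hadam b c d a e f
    rw [adet_213 a b d, adet_231 a b c, adet_312 c d e, adet_132 b d e, adet_312 c d f, adet_132 b d f] at h
    exact h
  exact core4 _ _ _ _ _ _ _ _ _ (abs_nonneg _) (abs_nonneg _) (by positivity) (by positivity)
    (by positivity) (by positivity) (by positivity) (by positivity) (by ring) e1 e2

theorem alg6 (a b c d e f : Fin 3 → ℝ) :
    15 / 16 * (S3 [a, b, c, d, e, f]) ^ 2 ≤
      S3 [cr3 a b, cr3 a c, cr3 a d, cr3 a e, cr3 a f, cr3 b c, cr3 b d, cr3 b e, cr3 b f, cr3 c d, cr3 c e, cr3 c f, cr3 d e, cr3 d f, cr3 e f] := by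
  simp only [S3, P3, List.map_cons, List.map_nil, List.sum_cons, List.sum_nil, add_zero]
  simp only [pat_0 a b c d, pat_0 a b c e, pat_0 a b c f, pat_1 a b c, pat_2 a b c d, pat_2 a b c e, pat_2 a b c f, pat_3 a b c d,
    pat_3 a b c e, pat_3 a b c f, pat_4 a b c d e, pat_4 a b c d f, pat_4 a b c e f, pat_0 a b d e, pat_0 a b d f, pat_5 a b c d,
    pat_1 a b d, pat_2 a b d e, pat_2 a b d f, pat_6 a b c d, pat_7 a b c d e, pat_7 a b c d f, pat_3 a b d e, pat_3 a b d f,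
    pat_4 a b d e f, pat_0 a b e f, pat_5 a b c e, pat_5 a b d e, pat_1 a b e, pat_2 a b e f, pat_8 a b c d e, pat_6 a b c e,
    pat_7 a b c e f, pat_6 a b d e, pat_7 a b d e f, pat_3 a b e f, pat_5 a b c f, pat_5 a b d f, pat_5 a b e f, pat_1 a b f]
  simp only [pat_8 a b c d f, pat_8 a b c e f, pat_6 a b c f, pat_8 a b d e f, pat_6 a b d f, pat_6 a b e f, pat_9 a b c d, pat_9 a b c e,
    pat_9 a b c f, pat_10 a b c d, pat_10 a b c e, pat_10 a b c f, pat_11 a b c d e, pat_11 a b c d f, pat_11 a b c e f, pat_9 a b d e,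
    pat_9 a b d f, pat_12 a b c d, pat_13 a b c d e, pat_13 a b c d f, pat_10 a b d e, pat_10 a b d f, pat_11 a b d e f, pat_9 a b e f,
    pat_14 a b c d e, pat_12 a b c e, pat_13 a b c e f, pat_12 a b d e, pat_13 a b d e f, pat_10 a b e f, pat_14 a b c d f, pat_14 a b c e f,
    pat_12 a b c f, pat_14 a b d e f, pat_12 a b d f, pat_12 a b e f, pat_15 a b c d e, pat_15 a b c d f, pat_16 a b c d e, pat_16 a b c d f]
  simp only [pat_15 a b c e f, pat_17 a b c d e, pat_16 a b c e f, pat_17 a b c d f, pat_17 a b c e f, pat_15 a b d e f, pat_16 a b d e f, pat_17 a b d e f,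
    pat_0 a c d e, pat_0 a c d f, pat_18 a b c d, pat_19 a b c d, pat_20 a b c d e, pat_20 a b c d f, pat_1 a c d, pat_2 a c d e,
    pat_2 a c d f, pat_3 a c d e, pat_3 a c d f, pat_4 a c d e f, pat_0 a c e f, pat_18 a b c e, pat_21 a b c d e, pat_19 a b c e,
    pat_20 a b c e f, pat_5 a c d e, pat_1 a c e, pat_2 a c e f, pat_6 a c d e, pat_7 a c d e f, pat_3 a c e f, pat_18 a b c f,
    pat_21 a b c d f, pat_21 a b c e f, pat_19 a b c f, pat_5 a c d f, pat_5 a c e f, pat_1 a c f, pat_8 a c d e f, pat_6 a c d f]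
  simp only [pat_6 a c e f, pat_22 a b c d, pat_22 a b c e, pat_22 a b c f, pat_23 a b c d, pat_23 a b c e, pat_23 a b c f, pat_24 a b c d e,
    pat_24 a b c d f, pat_24 a b c e f, pat_25 a b c d e, pat_25 a b c d f, pat_26 a b c d, pat_27 a b c d e, pat_27 a b c d f, pat_28 a b c d e,
    pat_28 a b c d f, pat_25 a b c e f, pat_29 a b c d e, pat_26 a b c e, pat_27 a b c e f, pat_30 a b c d e, pat_28 a b c e f, pat_29 a b c d f,
    pat_29 a b c e f, pat_26 a b c f, pat_30 a b c d f, pat_30 a b c e f, pat_9 a c d e, pat_9 a c d f, pat_10 a c d e, pat_10 a c d f,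
    pat_11 a c d e f, pat_9 a c e f, pat_12 a c d e, pat_13 a c d e f, pat_10 a c e f, pat_14 a c d e f, pat_12 a c d f, pat_12 a c e f]
  simp only [pat_15 a c d e f, pat_16 a c d e f, pat_17 a c d e f, pat_0 a d e f, pat_31 a b c d e, pat_18 a b d e, pat_19 a b d e, pat_20 a b d e f,
    pat_18 a c d e, pat_19 a c d e, pat_20 a c d e f, pat_1 a d e, pat_2 a d e f, pat_3 a d e f, pat_31 a b c d f, pat_18 a b d f,
    pat_21 a b d e f, pat_19 a b d f, pat_18 a c d f, pat_21 a c d e f, pat_19 a c d f, pat_5 a d e f, pat_1 a d f, pat_6 a d e f,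
    pat_32 a b c d, pat_33 a b c d e, pat_33 a b c d f, pat_34 a b c d, pat_35 a b c d e, pat_35 a b c d f, pat_36 a b c d e, pat_36 a b c d f,
    pat_22 a b d e, pat_22 a b d f, pat_37 a b c d, pat_38 a b c d e, pat_38 a b c d f, pat_23 a b d e, pat_23 a b d f, pat_24 a b d e f]
  simp only [pat_25 a b d e f, pat_39 a b c d e, pat_40 a b c d e, pat_26 a b d e, pat_27 a b d e f, pat_28 a b d e f, pat_39 a b c d f, pat_40 a b c d f,
    pat_29 a b d e f, pat_26 a b d f, pat_30 a b d e f, pat_22 a c d e, pat_22 a c d f, pat_23 a c d e, pat_23 a c d f, pat_24 a c d e f,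
    pat_25 a c d e f, pat_26 a c d e, pat_27 a c d e f, pat_28 a c d e f, pat_29 a c d e f, pat_26 a c d f, pat_30 a c d e f, pat_9 a d e f,
    pat_10 a d e f, pat_12 a d e f, pat_31 a b c e f, pat_31 a b d e f, pat_18 a b e f, pat_19 a b e f, pat_31 a c d e f, pat_18 a c e f,
    pat_19 a c e f, pat_18 a d e f, pat_19 a d e f, pat_1 a e f, pat_41 a b c d e, pat_32 a b c e, pat_33 a b c e f, pat_42 a b c d e]
  simp only [pat_34 a b c e, pat_35 a b c e f, pat_43 a b c d e, pat_36 a b c e f, pat_32 a b d e, pat_33 a b d e f, pat_44 a b c d e, pat_45 a b c d e,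
    pat_34 a b d e, pat_35 a b d e f, pat_36 a b d e f, pat_22 a b e f, pat_46 a b c d e, pat_37 a b c e, pat_38 a b c e f, pat_37 a b d e,
    pat_38 a b d e f, pat_23 a b e f, pat_39 a b c e f, pat_40 a b c e f, pat_39 a b d e f, pat_40 a b d e f, pat_26 a b e f, pat_32 a c d e,
    pat_33 a c d e f, pat_34 a c d e, pat_35 a c d e f, pat_36 a c d e f, pat_22 a c e f, pat_37 a c d e, pat_38 a c d e f, pat_23 a c e f,
    pat_39 a c d e f, pat_40 a c d e f, pat_26 a c e f, pat_22 a d e f, pat_23 a d e f, pat_26 a d e f, pat_41 a b c d f, pat_41 a b c e f]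
  simp only [pat_32 a b c f, pat_42 a b c d f, pat_42 a b c e f, pat_34 a b c f, pat_43 a b c d f, pat_43 a b c e f, pat_41 a b d e f, pat_32 a b d f,
    pat_44 a b c d f, pat_45 a b c d f, pat_42 a b d e f, pat_34 a b d f, pat_43 a b d e f, pat_32 a b e f, pat_44 a b c e f, pat_45 a b c e f,
    pat_44 a b d e f, pat_45 a b d e f, pat_34 a b e f, pat_46 a b c d f, pat_46 a b c e f, pat_37 a b c f, pat_46 a b d e f, pat_37 a b d f,
    pat_37 a b e f, pat_41 a c d e f, pat_32 a c d f, pat_42 a c d e f, pat_34 a c d f, pat_43 a c d e f, pat_32 a c e f, pat_44 a c d e f,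
    pat_45 a c d e f, pat_34 a c e f, pat_46 a c d e f, pat_37 a c d f, pat_37 a c e f, pat_32 a d e f, pat_34 a d e f, pat_37 a d e f]
  simp only [pat_0 b c d e, pat_0 b c d f, pat_1 b c d, pat_2 b c d e, pat_2 b c d f, pat_3 b c d e, pat_3 b c d f, pat_4 b c d e f,
    pat_0 b c e f, pat_5 b c d e, pat_1 b c e, pat_2 b c e f, pat_6 b c d e, pat_7 b c d e f, pat_3 b c e f, pat_5 b c d f,
    pat_5 b c e f, pat_1 b c f, pat_8 b c d e f, pat_6 b c d f, pat_6 b c e f, pat_9 b c d e, pat_9 b c d f, pat_10 b c d e,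
    pat_10 b c d f, pat_11 b c d e f, pat_9 b c e f, pat_12 b c d e, pat_13 b c d e f, pat_10 b c e f, pat_14 b c d e f, pat_12 b c d f,
    pat_12 b c e f, pat_15 b c d e f, pat_16 b c d e f, pat_17 b c d e f, pat_0 b d e f, pat_18 b c d e, pat_19 b c d e, pat_20 b c d e f]
  simp only [pat_1 b d e, pat_2 b d e f, pat_3 b d e f, pat_18 b c d f, pat_21 b c d e f, pat_19 b c d f, pat_5 b d e f, pat_1 b d f,
    pat_6 b d e f, pat_22 b c d e, pat_22 b c d f, pat_23 b c d e, pat_23 b c d f, pat_24 b c d e f, pat_25 b c d e f, pat_26 b c d e,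
    pat_27 b c d e f, pat_28 b c d e f, pat_29 b c d e f, pat_26 b c d f, pat_30 b c d e f, pat_9 b d e f, pat_10 b d e f, pat_12 b d e f,
    pat_31 b c d e f, pat_18 b c e f, pat_19 b c e f, pat_18 b d e f, pat_19 b d e f, pat_1 b e f, pat_32 b c d e, pat_33 b c d e f,
    pat_34 b c d e, pat_35 b c d e f, pat_36 b c d e f, pat_22 b c e f, pat_37 b c d e, pat_38 b c d e f, pat_23 b c e f, pat_39 b c d e f]
  simp only [pat_40 b c d e f, pat_26 b c e f, pat_22 b d e f, pat_23 b d e f, pat_26 b d e f, pat_41 b c d e f, pat_32 b c d f, pat_42 b c d e f,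
    pat_34 b c d f, pat_43 b c d e f, pat_32 b c e f, pat_44 b c d e f, pat_45 b c d e f, pat_34 b c e f, pat_46 b c d e f, pat_37 b c d f,
    pat_37 b c e f, pat_32 b d e f, pat_34 b d e f, pat_37 b d e f, pat_0 c d e f, pat_1 c d e, pat_2 c d e f, pat_3 c d e f,
    pat_5 c d e f, pat_1 c d f, pat_6 c d e f, pat_9 c d e f, pat_10 c d e f, pat_12 c d e f, pat_18 c d e f, pat_19 c d e f,
    pat_1 c e f, pat_22 c d e f, pat_23 c d e f, pat_26 c d e f, pat_32 c d e f, pat_34 c d e f, pat_37 c d e f, pat_1 d e f]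
  linarith [m3_0 a b c d e f,
    q4_0 a b c d e f,
    m3_1 a b c d e f,
    q4_1 a b c d e f,
    m3_2 a b c d e f,
    q4_2 a b c d e f,
    m3_3 a b c d e f,
    q4_3 a b c d e f,
    m3_4 a b c d e f,
    q4_4 a b c d e f,
    m3_5 a b c d e f,
    q4_5 a b c d e f,
    m3_6 a b c d e f,
    q4_6 a b c d e f,
    m3_7 a b c d e f,
    q4_7 a b c d e f,
    m3_8 a b c d e f,
    q4_8 a b c d e f,
    m3_9 a b c d e f,
    q4_9 a b c d e f]

end Vale.Agent.H64
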