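import Vale.Agent.H64.Petty.Base

/-!
Generic real-number and determinant lemmas used by the generated algebraic core.
-/

namespace Vale.Agent.H64

theorem adet_132 (x y z : Fin 3 → ℝ) : |det3 x z y| = |det3 x y z| := by
  rw [show det3 x z y = -det3 x y z by simp only [det3]; ring, abs_neg]

theorem adet_213 (x y z : Fin 3 → ℝ) : |det3 y x z| = |det3 x y z| := by
  rw [show det3 y x z = -det3 x y z by simp only [det3]; ring, abs_neg]

theorem adet_231 (x y z : Fin 3 → ℝ) : |det3 y z x| = |det3 x y z| := by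
  rw [show det3 y z x = det3 x y z by simp only [det3]; ring]

theorem adet_312 (x y z : Fin 3 → ℝ) : |det3 z x y| = |det3 x y z| := by
  rw [show det3 z x y = det3 x y z by simp only [det3]; ring]

theorem adet_321 (x y z : Fin 3 → ℝ) : |det3 z y x| = |det3 x y z| := by
  rw [show det3 z y x = -det3 x y z by simp only [det3]; ring, abs_neg]

/-- `|det M| ≤ ∏_j ∑_i |M i j|` for a `3 × 3` matrix. -/
theorem abs_det_le_prod_colsum (m11 m12 m13 m21 m22 m23 m31 m32 m33 : ℝ) :
    |m11 * (m22 * m33 - m23 * m32) - m12 * (m21 * m33 - m23 * m31) + m13 * (m21 * m32 - m22 * m31)| ≤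
      (|m11| + |m21| + |m31|) * (|m12| + |m22| + |m32|) * (|m13| + |m23| + |m33|) := by
  have e : m11 * (m22 * m33 - m23 * m32) - m12 * (m21 * m33 - m23 * m31) + m13 * (m21 * m32 - m22 * m31)
      = m11 * m22 * m33 - m11 * m23 * m32 - m12 * m21 * m33 + m12 * m23 * m31 + m13 * m21 * m32
        - m13 * m22 * m31 := by ring
  rw [e]
  have t1 := abs_mul (m11 * m22) m33
  have t1' := abs_mul m11 m22
  have t2 := abs_mul (m11 * m23) m32
  have t2' := abs_mul m11 m23
  have t3 := abs_mul (m12 * m21) m33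
  have t3' := abs_mul m12 m21
  have t4 := abs_mul (m12 * m23) m31
  have t4' := abs_mul m12 m23
  have t5 := abs_mul (m13 * m21) m32
  have t5' := abs_mul m13 m21
  have t6 := abs_mul (m13 * m22) m31
  have t6' := abs_mul m13 m22
  rw [t1'] at t1; rw [t2'] at t2; rw [t3'] at t3; rw [t4'] at t4; rw [t5'] at t5; rw [t6'] at t6
  have hb : |m11 * m22 * m33 - m11 * m23 * m32 - m12 * m21 * m33 + m12 * m23 * m31 + m13 * m21 * m32
        - m13 * m22 * m31| ≤ |m11 * m22 * m33| + |m11 * m23 * m32| + |m12 * m21 * m33|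
          + |m12 * m23 * m31| + |m13 * m21 * m32| + |m13 * m22 * m31| := by
    rw [abs_le]
    constructor
    · linarith [le_abs_self (m11 * m22 * m33), neg_abs_le (m11 * m22 * m33),
        le_abs_self (m11 * m23 * m32), neg_abs_le (m11 * m23 * m32),
        le_abs_self (m12 * m21 * m33), neg_abs_le (m12 * m21 * m33),
        le_abs_self (m12 * m23 * m31), neg_abs_le (m12 * m23 * m31),
        le_abs_self (m13 * m21 * m32), neg_abs_le (m13 * m21 * m32),
        le_abs_self (m13 * m22 * m31), neg_abs_le (m13 * m22 * m31)]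
    · linarith [le_abs_self (m11 * m22 * m33), neg_abs_le (m11 * m22 * m33),
        le_abs_self (m11 * m23 * m32), neg_abs_le (m11 * m23 * m32),
        le_abs_self (m12 * m21 * m33), neg_abs_le (m12 * m21 * m33),
        le_abs_self (m12 * m23 * m31), neg_abs_le (m12 * m23 * m31),
        le_abs_self (m13 * m21 * m32), neg_abs_le (m13 * m21 * m32),
        le_abs_self (m13 * m22 * m31), neg_abs_le (m13 * m22 * m31)]
  refine hb.trans ?_
  rw [t1, t2, t3, t4, t5, t6]
  have a11 := abs_nonneg m11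
  have a12 := abs_nonneg m12
  have a13 := abs_nonneg m13
  have a21 := abs_nonneg m21
  have a22 := abs_nonneg m22
  have a23 := abs_nonneg m23
  have a31 := abs_nonneg m31
  have a32 := abs_nonneg m32
  have a33 := abs_nonneg m33
  have hx : (|m11| + |m21| + |m31|) * (|m12| + |m22| + |m32|) * (|m13| + |m23| + |m33|)
      = (|m11| * |m22| * |m33| + |m11| * |m23| * |m32| + |m12| * |m21| * |m33|
          + |m12| * |m23| * |m31| + |m13| * |m21| * |m32| + |m13| * |m22| * |m31|)
        + (|m11| * |m12| * |m13| + |m11| * |m12| * |m23| + |m11| * |m12| * |m33|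
          + |m11| * |m22| * |m13| + |m11| * |m22| * |m23| + |m11| * |m32| * |m13|
          + |m11| * |m32| * |m33| + |m21| * |m12| * |m13| + |m21| * |m12| * |m23|
          + |m21| * |m22| * |m13| + |m21| * |m22| * |m23| + |m21| * |m22| * |m33|
          + |m21| * |m32| * |m23| + |m21| * |m32| * |m33| + |m31| * |m12| * |m13|
          + |m31| * |m12| * |m33| + |m31| * |m22| * |m23| + |m31| * |m22| * |m33|
          + |m31| * |m32| * |m13| + |m31| * |m32| * |m23| + |m31| * |m32| * |m33|) := by ring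
  rw [hx]
  have : 0 ≤ |m11| * |m12| * |m13| + |m11| * |m12| * |m23| + |m11| * |m12| * |m33|
          + |m11| * |m22| * |m13| + |m11| * |m22| * |m23| + |m11| * |m32| * |m13|
          + |m11| * |m32| * |m33| + |m21| * |m12| * |m13| + |m21| * |m12| * |m23|
          + |m21| * |m22| * |m13| + |m21| * |m22| * |m23| + |m21| * |m22| * |m33|
          + |m21| * |m32| * |m23| + |m21| * |m32| * |m33| + |m31| * |m12| * |m13|
          + |m31| * |m12| * |m33| + |m31| * |m22| * |m23| + |m31| * |m22| * |m33|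
          + |m31| * |m32| * |m13| + |m31| * |m32| * |m23| + |m31| * |m32| * |m33| := by positivity
  linarith

/-- Hadamard-type bound: `D(a,b,c)^2 D(d,e,f)` is a determinant of determinants. -/
theorem hadam (a b c d e f : Fin 3 → ℝ) :
    |det3 a b c| ^ 2 * |det3 d e f| ≤
      (|det3 d b c| + |det3 a d c| + |det3 a b d|) * (|det3 e b c| + |det3 a e c| + |det3 a b e|) *
        (|det3 f b c| + |det3 a f c| + |det3 a b f|) := by
  have key : det3 a b c ^ 2 * det3 d e f =
      det3 d b c * (det3 a e c * det3 a b f - det3 a f c * det3 a b e)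
        - det3 e b c * (det3 a d c * det3 a b f - det3 a f c * det3 a b d)
        + det3 f b c * (det3 a d c * det3 a b e - det3 a e c * det3 a b d) := by
    simp only [det3]; ring
  have h := abs_det_le_prod_colsum (det3 d b c) (det3 e b c) (det3 f b c) (det3 a d c) (det3 a e c)
    (det3 a f c) (det3 a b d) (det3 a b e) (det3 a b f)
  rw [← key] at h
  rwa [abs_mul, abs_pow] at h

theorem amgm3 (x y z : ℝ) (hx : 0 ≤ x) (hy : 0 ≤ y) (hz : 0 ≤ z) :
    x * y * z ≤ ((x + y + z) / 3) ^ 3 := by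
  nlinarith [mul_nonneg hx (sq_nonneg (y - z)), mul_nonneg hy (sq_nonneg (z - x)),
    mul_nonneg hz (sq_nonneg (x - y)), mul_nonneg (add_nonneg (add_nonneg hx hy) hz) (sq_nonneg (x - y)),
    mul_nonneg (add_nonneg (add_nonneg hx hy) hz) (sq_nonneg (y - z)),
    mul_nonneg (add_nonneg (add_nonneg hx hy) hz) (sq_nonneg (z - x))]

theorem core4_aux (s t U V A : ℝ) (hs : 0 ≤ s) (ht : 0 ≤ t) (hU0 : 0 ≤ U) (hV0 : 0 ≤ V)
    (hA : A = s + t + U + V) (d : s * t ≤ U * V / 9) : s * t ≤ (s + t) * A / 16 := by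
  have hA0 : 0 ≤ A := by rw [hA]; positivity
  have hst : 0 ≤ s + t := add_nonneg hs ht
  rcases le_total (s + t) (A / 4) with hx | hx
  · have h1 : s * t ≤ (s + t) ^ 2 / 4 := by nlinarith [sq_nonneg (s - t)]
    have h2 : (s + t) * (s + t) ≤ (s + t) * (A / 4) := mul_le_mul_of_nonneg_left hx hst
    nlinarith
  · have hUV : U + V = A - (s + t) := by rw [hA]; ring
    have h1 : U * V ≤ (U + V) ^ 2 / 4 := by nlinarith [sq_nonneg (U - V)]
    have h2 : U + V ≤ 3 * A / 4 := by linarith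
    have h3 : 0 ≤ U + V := add_nonneg hU0 hV0
    have h4 : (U + V) * (U + V) ≤ (3 * A / 4) * (3 * A / 4) := mul_le_mul h2 h2 h3 (by positivity)
    have h5 : A * (A / 4) ≤ A * (s + t) := mul_le_mul_of_nonneg_left hx hA0
    nlinarith

/-- The key real inequality: a product of two complementary minors is at most
`(s + t) * A / 16`. -/
theorem core4 (s t S4 S5 S6 R1 R2 R3 A : ℝ) (hs : 0 ≤ s) (ht : 0 ≤ t)
    (h4 : 0 ≤ S4) (h5 : 0 ≤ S5) (h6 : 0 ≤ S6) (r1 : 0 ≤ R1) (r2 : 0 ≤ R2) (r3 : 0 ≤ R3)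
    (hA : A = s + t + (S4 + S5 + S6) + (R1 + R2 + R3))
    (e1 : s ^ 2 * t ≤ S4 * S5 * S6) (e2 : t ^ 2 * s ≤ R1 * R2 * R3) :
    s * t ≤ (s + t) * A / 16 := by
  have hU0 : 0 ≤ S4 + S5 + S6 := by positivity
  have hV0 : 0 ≤ R1 + R2 + R3 := by positivity
  have a1 : S4 * S5 * S6 ≤ ((S4 + S5 + S6) / 3) ^ 3 := amgm3 S4 S5 S6 h4 h5 h6
  have a2 : R1 * R2 * R3 ≤ ((R1 + R2 + R3) / 3) ^ 3 := amgm3 R1 R2 R3 r1 r2 r3
  have b1 : s ^ 2 * t ≤ ((S4 + S5 + S6) / 3) ^ 3 := e1.trans a1
  have b2 : t ^ 2 * s ≤ ((R1 + R2 + R3) / 3) ^ 3 := e2.trans a2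
  have c : (s * t) ^ 3 ≤ ((S4 + S5 + S6) * (R1 + R2 + R3) / 9) ^ 3 := by
    have e3 : (s * t) ^ 3 = (s ^ 2 * t) * (t ^ 2 * s) := by ring
    rw [e3]
    have e4 : ((S4 + S5 + S6) * (R1 + R2 + R3) / 9) ^ 3
        = ((S4 + S5 + S6) / 3) ^ 3 * ((R1 + R2 + R3) / 3) ^ 3 := by ring
    rw [e4]
    exact mul_le_mul b1 b2 (by positivity) (by positivity)
  have d : s * t ≤ (S4 + S5 + S6) * (R1 + R2 + R3) / 9 :=
    (pow_le_pow_iff_left₀ (by positivity) (by positivity) (by norm_num : (3 : ℕ) ≠ 0)).mp c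
  exact core4_aux s t (S4 + S5 + S6) (R1 + R2 + R3) A hs ht hU0 hV0 hA d

example (a b c : ℝ) (h : a*b ≤ (a+b)*c/16) (h2 : b*a ≥ 1) : (a*c + c*b)/16 ≥ 1 := by linarith

end Vale.Agent.H64
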