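import Mathlib

/-!
Basic algebraic definitions for the zonotope computations in `ℝ^3`:
explicit determinants, cross product, and the list sums
`S1`, `S2`, `S3` (sums of absolute values of minors over increasing index tuples).
-/

namespace Vale.Agent.H64

/-- The determinant of the `3 × 3` matrix with columns (or rows) `a`, `b`, `c`. -/
def det3 (a b c : Fin 3 → ℝ) : ℝ :=
  a 0 * (b 1 * c 2 - b 2 * c 1) - a 1 * (b 0 * c 2 - b 2 * c 0) + a 2 * (b 0 * c 1 - b 1 * c 0)

/-- The determinant of the `2 × 2` matrix with columns `a`, `b`. -/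
def det2 (a b : Fin 2 → ℝ) : ℝ := a 0 * b 1 - a 1 * b 0

/-- The cross product in `ℝ^3`. -/
def cr3 (a b : Fin 3 → ℝ) : Fin 3 → ℝ :=
  ![a 1 * b 2 - a 2 * b 1, a 2 * b 0 - a 0 * b 2, a 0 * b 1 - a 1 * b 0]

theorem cr3_0 (a b : Fin 3 → ℝ) : cr3 a b 0 = a 1 * b 2 - a 2 * b 1 := rfl
theorem cr3_1 (a b : Fin 3 → ℝ) : cr3 a b 1 = a 2 * b 0 - a 0 * b 2 := rfl
theorem cr3_2 (a b : Fin 3 → ℝ) : cr3 a b 2 = a 0 * b 1 - a 1 * b 0 := rfl

/-- Sum of `|a|` over a list of vectors in `ℝ^1`. -/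
def S1 : List (Fin 1 → ℝ) → ℝ
  | [] => 0
  | a :: l => |a 0| + S1 l

/-- Sum of `|det2 a b|` over all pairs of positions `i < j` of a list of vectors in `ℝ^2`. -/
def S2 : List (Fin 2 → ℝ) → ℝ
  | [] => 0
  | a :: l => (l.map fun b => |det2 a b|).sum + S2 l

/-- Sum of `|det3 a b c|` over all pairs of positions `i < j` of a list. -/
def P3 (a : Fin 3 → ℝ) : List (Fin 3 → ℝ) → ℝ
  | [] => 0
  | b :: l => (l.map fun c => |det3 a b c|).sum + P3 a l

/-- Sum of `|det3 a b c|` over all triples of positions `i < j < k` of a list of vectors in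
`ℝ^3`. -/
def S3 : List (Fin 3 → ℝ) → ℝ
  | [] => 0
  | a :: l => P3 a l + S3 l

end Vale.Agent.H64
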