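import Vale.Agent.H64.Petty.ProjBody
import Vale.Agent.H64.Petty.Alg5
import Vale.Agent.H64.Petty.Alg6

/-!
Petty's projection inequality for zonotopes with at most six generators in Euclidean 3-space.
-/

namespace Vale.Agent.H64

open Set MeasureTheory

theorem sum_map_zero' {α : Type*} (l : List α) : (l.map fun _ => (0 : ℝ)).sum = 0 := by
  induction l with
  | nil => simp
  | cons a l ih => simp

section coords

variable {E : Type*} [NormedAddCommGroup E] [InnerProductSpace ℝ E] [FiniteDimensional ℝ E]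
  [MeasurableSpace E] [BorelSpace E]

/-- The projection body of a zonotope in a Euclidean 3-space with orthonormal coordinates `c` is
the zonotope generated by the vectors `4 • (vᵢ × vⱼ)`, `i < j`. -/
theorem projBody_zonoL (c : E ≃ₗ[ℝ] (Fin 3 → ℝ))
    (hc : ∀ x y : E, inner ℝ x y = dot3 (c x) (c y)) (l : List E) :
    projBody (zonoL l) =
      zonoL ((pairsL (l.map c)).map (fun z => c.symm ((4 : ℝ) • z))) := by
  rw [← zonoL_eq_support ((pairsL (l.map c)).map (fun z => c.symm ((4 : ℝ) • z)))]
  ext x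
  simp only [projBody, mem_ofPred_eq]
  refine forall_congr' fun u => ?_
  have hterm : ∀ z : Fin 3 → ℝ,
      |inner ℝ u (c.symm ((4 : ℝ) • z))| = 4 * |dot3 (c u) z| := by
    intro z
    rw [hc]
    have e : dot3 (c u) (c (c.symm ((4 : ℝ) • z))) =
        4 * dot3 (c u) z := by
      rw [LinearEquiv.apply_symm_apply]
      simp only [dot3, Pi.smul_apply, smul_eq_mul]; ring
    rw [e, abs_mul, abs_of_pos (by norm_num : (0 : ℝ) < 4)]
  have key : ‖u‖ * (projVolume (zonoL l) u).toReal =
      (((pairsL (l.map c)).map (fun z => c.symm ((4 : ℝ) • z))).map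
        fun g => |inner ℝ u g|).sum := by
    rw [List.map_map]
    by_cases hu : u = 0
    · subst hu
      have : ((fun g : E => |inner ℝ (0 : E) g|) ∘ fun z : Fin 3 → ℝ => c.symm ((4 : ℝ) • z))
          = fun _ => (0 : ℝ) := by
        funext z; simp
      rw [this, sum_map_zero']
      simp
    · rw [projVolume_zonoL c hc l u hu, ← List.sum_map_mul_left]
      congr 1
      apply List.map_congr_left
      intro z _
      simp only [Function.comp, hterm]
  rw [key]

end coords

theorem det3_smul (c : ℝ) (x y z : Fin 3 → ℝ) :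
    det3 (c • x) (c • y) (c • z) = c ^ 3 * det3 x y z := by
  simp only [det3, Pi.smul_apply, smul_eq_mul]; ring

theorem P3_smul (c : ℝ) (a : Fin 3 → ℝ) (l : List (Fin 3 → ℝ)) :
    P3 (c • a) (l.map (fun z => c • z)) = |c| ^ 3 * P3 a l := by
  induction l with
  | nil => simp [P3]
  | cons b l ih =>
    simp only [List.map_cons, P3, ih, mul_add]
    congr 1
    rw [List.map_map, ← List.sum_map_mul_left]
    congr 1
    apply List.map_congr_left
    intro z _
    simp only [Function.comp, det3_smul, abs_mul, abs_pow]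

theorem S3_smul (c : ℝ) (l : List (Fin 3 → ℝ)) :
    S3 (l.map (fun z => c • z)) = |c| ^ 3 * S3 l := by
  induction l with
  | nil => simp [S3]
  | cons a l ih => simp only [List.map_cons, S3, ih, mul_add, P3_smul]

section coords

variable {E : Type*} [NormedAddCommGroup E] [InnerProductSpace ℝ E] [FiniteDimensional ℝ E]
  [MeasurableSpace E] [BorelSpace E] (c : E ≃ₗ[ℝ] (Fin 3 → ℝ))
  (hc : ∀ x y : E, inner ℝ x y = dot3 (c x) (c y))
  (hv : ∀ S : Set E, volume (c '' S) = volume S)

include hv in
theorem volume_zonoL_E3 (l : List E) :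
    volume (zonoL l) = ENNReal.ofReal (8 * S3 (l.map c)) := by
  have h : c '' zonoL l = zonoL (l.map c) := zonoL_map c.toLinearMap l
  rw [← hv, h, volume_zonoL_three]

include hc hv in
theorem volume_projBody_zonoL (l : List E) :
    volume (projBody (zonoL l)) = ENNReal.ofReal (512 * S3 (pairsL (l.map c))) := by
  rw [projBody_zonoL c hc, volume_zonoL_E3 c hv, List.map_map]
  have e : (pairsL (l.map c)).map
      (c ∘ fun z : Fin 3 → ℝ => c.symm ((4 : ℝ) • z)) =
        (pairsL (l.map c)).map (fun z => (4 : ℝ) • z) := by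
    apply List.map_congr_left
    intro z _
    simp
  rw [e, S3_smul, abs_of_pos (by norm_num : (0 : ℝ) < 4)]
  congr 1
  ring

include hc hv in
/-- The two volumes for six generators, in terms of the algebraic sums. -/
theorem volumes_six (v : Fin 6 → E) :
    volume (zonotope v) = ENNReal.ofReal (8 * S3 [c (v 0), c (v 1),
        c (v 2), c (v 3), c (v 4), c (v 5)]) ∧
    volume (projBody (zonotope v)) = ENNReal.ofReal (512 * S3 (pairsL [c (v 0),
        c (v 1), c (v 2), c (v 3), c (v 4),
        c (v 5)])) := by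
  rw [zonotope_eq_zonoL, volume_projBody_zonoL c hc hv, volume_zonoL_E3 c hv]
  have hl : (List.ofFn v).map c = [c (v 0), c (v 1),
      c (v 2), c (v 3), c (v 4), c (v 5)] := by
    simp [List.ofFn_succ]
  rw [hl]
  exact ⟨rfl, rfl⟩

include hc hv in
theorem volumes_five (v : Fin 5 → E) :
    volume (zonotope v) = ENNReal.ofReal (8 * S3 [c (v 0), c (v 1),
        c (v 2), c (v 3), c (v 4)]) ∧
    volume (projBody (zonotope v)) = ENNReal.ofReal (512 * S3 (pairsL [c (v 0),
        c (v 1), c (v 2), c (v 3), c (v 4)])) := by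
  rw [zonotope_eq_zonoL, volume_projBody_zonoL c hc hv, volume_zonoL_E3 c hv]
  have hl : (List.ofFn v).map c = [c (v 0), c (v 1),
      c (v 2), c (v 3), c (v 4)] := by
    simp [List.ofFn_succ]
  rw [hl]
  exact ⟨rfl, rfl⟩

include hc hv in
/-- For at most five generators, `|Π Z| = 8 |Z|^2`. -/
theorem projBody_five (v : Fin 5 → E) :
    volume (projBody (zonotope v)) = 8 * volume (zonotope v) ^ 2 := by
  obtain ⟨h1, h2⟩ := volumes_five c hc hv v
  rw [h1, h2]
  have h := alg5 (c (v 0)) (c (v 1)) (c (v 2)) (c (v 3))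
    (c (v 4))
  have hp : pairsL [c (v 0), c (v 1), c (v 2), c (v 3),
      c (v 4)] = _ := rfl
  simp only [pairsL, List.map_cons, List.map_nil, List.cons_append, List.nil_append,
    List.append_nil] at hp ⊢
  rw [h, ← ENNReal.ofReal_pow (mul_nonneg (by norm_num) (S3_nonneg _)),
    show (8 : ENNReal) = ENNReal.ofReal 8 by simp, ← ENNReal.ofReal_mul (by norm_num)]
  congr 1
  ring

include hc hv in
/-- The numerical data for six generators. -/
theorem six_data (v : Fin 6 → E) : ∃ S T : ℝ, 0 ≤ S ∧ 0 ≤ T ∧ 15 / 16 * S ^ 2 ≤ T ∧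
    volume (zonotope v) = ENNReal.ofReal (8 * S) ∧
    volume (projBody (zonotope v)) = ENNReal.ofReal (512 * T) := by
  obtain ⟨h1, h2⟩ := volumes_six c hc hv v
  refine ⟨_, _, S3_nonneg _, S3_nonneg _, ?_, h1, h2⟩
  exact alg6 (c (v 0)) (c (v 1)) (c (v 2)) (c (v 3))
    (c (v 4)) (c (v 5))

theorem pi_sq_lt_ten : Real.pi ^ 2 < 10 := by
  have h1 := Real.pi_gt_three
  have h2 := Real.pi_lt_d2
  nlinarith

include hc hv in
/-- Petty's conjectured inequality, with strict inequality for bodies of positive volume, for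
zonotopes with at most six generators in Euclidean 3-space. The constant `3 π^2 / 4` is
`κ_2^3 / κ_3`. -/
theorem petty_six (v : Fin 6 → E) :
    ENNReal.ofReal (3 * Real.pi ^ 2 / 4) * volume (zonotope v) ^ 2 ≤
        volume (projBody (zonotope v)) ∧
      (volume (zonotope v) ≠ 0 →
        ENNReal.ofReal (3 * Real.pi ^ 2 / 4) * volume (zonotope v) ^ 2 <
          volume (projBody (zonotope v))) ∧
      ENNReal.ofReal (15 / 2) * volume (zonotope v) ^ 2 ≤ volume (projBody (zonotope v)) ∧
      volume (projBody (zonotope v)) < ⊤ := by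
  obtain ⟨S, T, hS, hT, hST, hV, hW⟩ := six_data c hc hv v
  have hpi := Real.pi_pos
  have hpi2 := pi_sq_lt_ten
  have hS2 : 0 ≤ S ^ 2 := sq_nonneg S
  rw [hV, hW]
  rw [← ENNReal.ofReal_pow (by positivity), ← ENNReal.ofReal_mul (by positivity),
    ← ENNReal.ofReal_mul (by norm_num)]
  have key : 3 * Real.pi ^ 2 / 4 * (8 * S) ^ 2 ≤ 512 * T := by
    nlinarith
  refine ⟨ENNReal.ofReal_le_ofReal key, ?_, ENNReal.ofReal_le_ofReal (by nlinarith),
    ENNReal.ofReal_lt_top⟩
  intro hne
  have hSpos : 0 < S := by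
    rcases hS.lt_or_eq with h | h
    · exact h
    · exfalso; apply hne; rw [← h]; simp
  have hS2pos : 0 < S ^ 2 := by positivity
  have key' : 3 * Real.pi ^ 2 / 4 * (8 * S) ^ 2 < 512 * T := by
    nlinarith
  have hpos : 0 < 512 * T := lt_of_le_of_lt (by positivity) key'
  exact (ENNReal.ofReal_lt_ofReal_iff hpos).mpr key'

end coords

end Vale.Agent.H64
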