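import Vale.Agent.H64.Petty.Zono

/-!
The prism formula: for a compact convex `K ⊆ ℝ^(n+1)`,
`vol (K + [-e₀, e₀]) = vol K + 2 * vol_n (tail '' K)`.
-/

namespace Vale.Agent.H64

open Set MeasureTheory

/-- The first standard basis vector of `ℝ^(n+1)`. -/
def e0 (n : ℕ) : Fin (n + 1) → ℝ := Pi.single 0 1

/-- Forgetting the coordinate `0`, as a linear map `ℝ^(n+1) → ℝ^n`. -/
def tailL (n : ℕ) : (Fin (n + 1) → ℝ) →ₗ[ℝ] (Fin n → ℝ) where
  toFun x := fun i => x i.succ
  map_add' _ _ := rfl
  map_smul' _ _ := rfl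

theorem tailL_apply (n : ℕ) (x : Fin (n + 1) → ℝ) (i : Fin n) : tailL n x i = x i.succ := rfl

/-- The point of `ℝ^(n+1)` with coordinate `0` equal to `s` and tail `y`. -/
def consV {n : ℕ} (s : ℝ) (y : Fin n → ℝ) : Fin (n + 1) → ℝ := Fin.cons s y

theorem consV_zero {n : ℕ} (s : ℝ) (y : Fin n → ℝ) : consV s y 0 = s := rfl

theorem consV_succ {n : ℕ} (s : ℝ) (y : Fin n → ℝ) (i : Fin n) : consV s y i.succ = y i := rfl

theorem consV_eq_iff {n : ℕ} (s : ℝ) (y : Fin n → ℝ) (x : Fin (n + 1) → ℝ) :
    consV s y = x ↔ s = x 0 ∧ y = tailL n x := by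
  constructor
  · rintro rfl; exact ⟨rfl, rfl⟩
  · rintro ⟨rfl, rfl⟩
    funext i
    refine Fin.cases ?_ ?_ i
    · rfl
    · intro j; rfl

/-- The fiber of `S` over `y`. -/
def fib {n : ℕ} (S : Set (Fin (n + 1) → ℝ)) (y : Fin n → ℝ) : Set ℝ := {s | consV s y ∈ S}

theorem continuous_consV {n : ℕ} (y : Fin n → ℝ) : Continuous fun s : ℝ => consV s y := by
  refine continuous_pi fun i => ?_
  refine Fin.cases ?_ ?_ i
  · exact continuous_id
  · intro j; exact continuous_const

theorem continuous_tailL (n : ℕ) : Continuous (tailL n) :=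
  continuous_pi fun i => continuous_apply i.succ

theorem volume_eq_lintegral_fib {n : ℕ} {S : Set (Fin (n + 1) → ℝ)} (hS : MeasurableSet S) :
    volume S = ∫⁻ y : Fin n → ℝ, volume (fib S y) := by
  have hφ := volume_preserving_piFinSuccAbove (fun _ : Fin (n + 1) => ℝ) 0
  have h1 : volume S = volume ((MeasurableEquiv.piFinSuccAbove (fun _ : Fin (n + 1) => ℝ) 0).symm ⁻¹' S) :=
    ((hφ.symm _).measure_preimage_equiv S).symm
  rw [h1]
  have h2 : MeasurableSet ((MeasurableEquiv.piFinSuccAbove (fun _ : Fin (n + 1) => ℝ) 0).symm ⁻¹' S) :=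
    (MeasurableEquiv.measurable _) hS
  rw [show (volume : Measure (ℝ × (Fin n → ℝ))) = (volume : Measure ℝ).prod volume from rfl,
    Measure.prod_apply_symm h2]
  refine lintegral_congr fun y => ?_
  congr 1
  ext s
  simp only [mem_preimage, fib, mem_ofPred_eq]
  have e : (MeasurableEquiv.piFinSuccAbove (fun _ : Fin (n + 1) => ℝ) 0).symm (s, y) = consV s y := by
    funext i
    refine Fin.cases ?_ ?_ i
    · simp [MeasurableEquiv.piFinSuccAbove, consV]
    · intro j
      simp [MeasurableEquiv.piFinSuccAbove, consV]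
  rw [e]

theorem fib_convex {n : ℕ} {K : Set (Fin (n + 1) → ℝ)} (hK : Convex ℝ K) (y : Fin n → ℝ) :
    Convex ℝ (fib K y) := by
  intro s hs s' hs' p q hp hq hpq
  have h := hK hs hs' hp hq hpq
  have e : p • consV s y + q • consV s' y = consV (p • s + q • s') y := by
    symm
    rw [consV_eq_iff]
    refine ⟨by simp [consV_zero], ?_⟩
    funext i
    simp only [tailL_apply, Pi.add_apply, Pi.smul_apply, consV_succ, smul_eq_mul]
    rw [← add_mul, hpq, one_mul]
  rw [e] at h
  exact h

theorem fib_isCompact {n : ℕ} {K : Set (Fin (n + 1) → ℝ)} (hK : IsCompact K) (y : Fin n → ℝ) :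
    IsCompact (fib K y) := by
  have hcl : IsClosed (fib K y) := hK.isClosed.preimage (continuous_consV y)
  have hsub : fib K y ⊆ (fun x : Fin (n + 1) → ℝ => x 0) '' K := by
    intro s hs
    exact ⟨consV s y, hs, rfl⟩
  exact (hK.image (continuous_apply 0)).of_isClosed_subset hcl hsub

theorem fib_nonempty_iff {n : ℕ} (K : Set (Fin (n + 1) → ℝ)) (y : Fin n → ℝ) :
    (fib K y).Nonempty ↔ y ∈ tailL n '' K := by
  constructor
  · rintro ⟨s, hs⟩
    exact ⟨consV s y, hs, rfl⟩
  · rintro ⟨k, hk, rfl⟩
    refine ⟨k 0, ?_⟩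
    have : consV (k 0) (tailL n k) = k := (consV_eq_iff _ _ _).2 ⟨rfl, rfl⟩
    simp only [fib, mem_ofPred_eq, this]
    exact hk

/-- The set `K + [-e₀, e₀]`. -/
def prismSet {n : ℕ} (K : Set (Fin (n + 1) → ℝ)) : Set (Fin (n + 1) → ℝ) :=
  {x | ∃ t : ℝ, |t| ≤ 1 ∧ ∃ y ∈ K, x = t • e0 n + y}

theorem fib_prismSet {n : ℕ} (K : Set (Fin (n + 1) → ℝ)) (y : Fin n → ℝ) :
    fib (prismSet K) y = {s | ∃ t : ℝ, |t| ≤ 1 ∧ s - t ∈ fib K y} := by
  ext s
  simp only [fib, prismSet, mem_ofPred_eq]
  constructor
  · rintro ⟨t, ht, k, hk, h⟩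
    refine ⟨t, ht, ?_⟩
    have : consV (s - t) y = k := by
      rw [consV_eq_iff]
      constructor
      · have := congrFun h 0
        simp only [consV_zero, Pi.add_apply, Pi.smul_apply, e0, Pi.single_eq_same, smul_eq_mul,
          mul_one] at this
        linarith
      · funext i
        have := congrFun h i.succ
        simp only [consV_succ, Pi.add_apply, Pi.smul_apply, e0, smul_eq_mul] at this
        rw [Pi.single_eq_of_ne (Fin.succ_ne_zero i)] at this
        simp only [mul_zero, zero_add] at this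
        rw [tailL_apply]; exact this
    rw [this]; exact hk
  · rintro ⟨t, ht, hk⟩
    refine ⟨t, ht, consV (s - t) y, hk, ?_⟩
    rw [consV_eq_iff]
    constructor
    · simp [consV_zero, e0]
    · funext i
      simp only [tailL_apply, Pi.add_apply, Pi.smul_apply, e0, smul_eq_mul, consV_succ]
      rw [Pi.single_eq_of_ne (Fin.succ_ne_zero i)]
      simp

open Classical in
theorem volume_thicken_real {F : Set ℝ} (hc : IsCompact F) (hv : Convex ℝ F) :
    volume {s : ℝ | ∃ t : ℝ, |t| ≤ 1 ∧ s - t ∈ F} =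
      volume F + (if F.Nonempty then 2 else 0) := by
  by_cases hne : F.Nonempty
  · have hconn : IsConnected F := ⟨hne, hv.isPreconnected⟩
    have hF := eq_Icc_of_connected_compact hconn hc
    have hab : sInf F ≤ sSup F := by
      obtain ⟨x, hx⟩ := hne
      rw [hF] at hx
      exact hx.1.trans hx.2
    set a := sInf F
    set b := sSup F
    have hset : {s : ℝ | ∃ t : ℝ, |t| ≤ 1 ∧ s - t ∈ F} = Icc (a - 1) (b + 1) := by
      ext s
      simp only [mem_ofPred_eq, mem_Icc]
      constructor
      · rintro ⟨t, ht, hs⟩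
        rw [hF] at hs
        have := abs_le.mp ht
        constructor <;> linarith [hs.1, hs.2]
      · rintro ⟨h1, h2⟩
        refine ⟨s - max a (min b s), ?_, ?_⟩
        · rw [abs_le]
          constructor
          · rcases le_total b s with h | h
            · rw [min_eq_left h, max_eq_right hab]; linarith
            · rw [min_eq_right h]
              rcases le_total a s with h' | h'
              · rw [max_eq_right h']; linarith
              · rw [max_eq_left h']; linarith
          · rcases le_total b s with h | h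
            · rw [min_eq_left h, max_eq_right hab]; linarith
            · rw [min_eq_right h]
              rcases le_total a s with h' | h'
              · rw [max_eq_right h']; linarith
              · rw [max_eq_left h']; linarith
        · rw [hF]
          simp only [sub_sub_cancel, mem_Icc]
          exact ⟨le_max_left _ _, max_le hab (min_le_left _ _)⟩
    rw [hset, if_pos hne, hF, Real.volume_Icc, Real.volume_Icc,
      show b + 1 - (a - 1) = (b - a) + 2 by ring, ENNReal.ofReal_add (by linarith) (by norm_num)]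
    simp
  · rw [if_neg hne]
    have hF : F = ∅ := not_nonempty_iff_eq_empty.mp hne
    have : {s : ℝ | ∃ t : ℝ, |t| ≤ 1 ∧ s - t ∈ F} = ∅ := by
      ext s; simp [hF]
    rw [this, hF]; simp

theorem prismSet_isCompact {n : ℕ} {K : Set (Fin (n + 1) → ℝ)} (hK : IsCompact K) :
    IsCompact (prismSet K) := by
  have h : prismSet K = (fun p : ℝ × (Fin (n + 1) → ℝ) => p.1 • e0 n + p.2) '' (Icc (-1 : ℝ) 1 ×ˢ K) := by
    ext x
    simp only [prismSet, mem_ofPred_eq, mem_image, mem_prod, mem_Icc, Prod.exists]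
    constructor
    · rintro ⟨t, ht, y, hy, rfl⟩
      exact ⟨t, y, ⟨abs_le.mp ht, hy⟩, rfl⟩
    · rintro ⟨t, y, ⟨ht, hy⟩, rfl⟩
      exact ⟨t, abs_le.mpr ht, y, hy, rfl⟩
  rw [h]
  exact (isCompact_Icc.prod hK).image (by fun_prop)

/-- The prism formula. -/
theorem volume_prismSet {n : ℕ} {K : Set (Fin (n + 1) → ℝ)} (hK : IsCompact K)
    (hconv : Convex ℝ K) :
    volume (prismSet K) = volume K + 2 * volume (tailL n '' K) := by
  have hm : MeasurableSet K := hK.isClosed.measurableSet
  have hm' : MeasurableSet (prismSet K) := (prismSet_isCompact hK).isClosed.measurableSet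
  have hmt : MeasurableSet (tailL n '' K) :=
    (hK.image (continuous_tailL n)).isClosed.measurableSet
  rw [volume_eq_lintegral_fib hm', volume_eq_lintegral_fib hm]
  have hfib : ∀ y : Fin n → ℝ, volume (fib (prismSet K) y) =
      volume (fib K y) + (tailL n '' K).indicator (fun _ => (2 : ENNReal)) y := by
    intro y
    rw [fib_prismSet, volume_thicken_real (fib_isCompact hK y) (fib_convex hconv y)]
    congr 1
    by_cases hy : y ∈ tailL n '' K
    · rw [if_pos ((fib_nonempty_iff K y).2 hy), indicator_of_mem hy]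
    · rw [if_neg (fun h => hy ((fib_nonempty_iff K y).1 h)), indicator_of_notMem hy]
  simp only [hfib]
  rw [lintegral_add_right _ (measurable_const.indicator hmt), lintegral_indicator_const hmt]

end Vale.Agent.H64
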