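import Vale.Agent.H64.Petty.Prism
import Vale.Agent.H64.Petty.Base

/-!
The volume of a zonotope in `ℝ^1`, `ℝ^2`, `ℝ^3`:
`vol (∑ [-aᵢ, aᵢ]) = 2^n * ∑_{i₁ < ... < iₙ} |det (a_{i₁}, ..., a_{iₙ})|`.
-/

namespace Vale.Agent.H64

open Set MeasureTheory Matrix

/-- Induction step: adding a generator `a = M e₀` to a zonotope. -/
theorem volume_zonoL_cons_of_matrix {n : ℕ} (M : Matrix (Fin (n + 1)) (Fin (n + 1)) ℝ)
    (hM : M.det ≠ 0) (a : Fin (n + 1) → ℝ) (ha : M *ᵥ e0 n = a) (l : List (Fin (n + 1) → ℝ)) :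
    volume (zonoL (a :: l)) = volume (zonoL l) +
      2 * (ENNReal.ofReal |M.det| * volume (zonoL (l.map (fun b => tailL n (M⁻¹ *ᵥ b))))) := by
  have hu : IsUnit M.det := isUnit_iff_ne_zero.mpr hM
  have hAB : ∀ b : Fin (n + 1) → ℝ, M *ᵥ (M⁻¹ *ᵥ b) = b := by
    intro b
    rw [Matrix.mulVec_mulVec, Matrix.mul_nonsing_inv M hu, Matrix.one_mulVec]
  have hAapp : ∀ x, Matrix.toLin' M x = M *ᵥ x := fun x => Matrix.toLin'_apply M x
  have hmap : (l.map (fun b => M⁻¹ *ᵥ b)).map (Matrix.toLin' M) = l := by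
    rw [List.map_map]
    conv_rhs => rw [← List.map_id l]
    apply List.map_congr_left
    intro b _
    simp [hAapp, hAB]
  have h1 : zonoL (a :: l) = Matrix.toLin' M '' zonoL (e0 n :: l.map (fun b => M⁻¹ *ᵥ b)) := by
    rw [zonoL_map, List.map_cons, hmap, hAapp, ha]
  have h5 : zonoL l = Matrix.toLin' M '' zonoL (l.map (fun b => M⁻¹ *ᵥ b)) := by
    rw [zonoL_map, hmap]
  have h3 : ∀ S : Set (Fin (n + 1) → ℝ),
      volume (Matrix.toLin' M '' S) = ENNReal.ofReal |M.det| * volume S := by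
    intro S
    rw [Measure.addHaar_image_linearMap, LinearMap.det_toLin']
  have h6 : tailL n '' zonoL (l.map (fun b => M⁻¹ *ᵥ b)) =
      zonoL (l.map (fun b => tailL n (M⁻¹ *ᵥ b))) := by
    rw [zonoL_map, List.map_map]; rfl
  have h4 := volume_prismSet (zonoL_isCompact (l.map (fun b => M⁻¹ *ᵥ b))) (zonoL_convex _)
  rw [h1, h3, show zonoL (e0 n :: l.map (fun b => M⁻¹ *ᵥ b)) =
    prismSet (zonoL (l.map (fun b => M⁻¹ *ᵥ b))) from rfl, h4, mul_add, ← h3, ← h5, h6]
  ring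

theorem S1_nonneg (l : List (Fin 1 → ℝ)) : 0 ≤ S1 l := by
  induction l with
  | nil => simp [S1]
  | cons a l ih => simp only [S1]; positivity

theorem sum_abs_nonneg {α : Type*} (f : α → ℝ) (l : List α) : 0 ≤ (l.map fun b => |f b|).sum := by
  induction l with
  | nil => simp
  | cons a l ih => simp only [List.map_cons, List.sum_cons]; positivity

theorem S2_nonneg (l : List (Fin 2 → ℝ)) : 0 ≤ S2 l := by
  induction l with
  | nil => simp [S2]
  | cons a l ih => simp only [S2]; have := sum_abs_nonneg (det2 a) l; positivity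

theorem P3_nonneg (a : Fin 3 → ℝ) (l : List (Fin 3 → ℝ)) : 0 ≤ P3 a l := by
  induction l with
  | nil => simp [P3]
  | cons b l ih => simp only [P3]; have := sum_abs_nonneg (det3 a b) l; positivity

theorem S3_nonneg (l : List (Fin 3 → ℝ)) : 0 ≤ S3 l := by
  induction l with
  | nil => simp [S3]
  | cons a l ih => simp only [S3]; have := P3_nonneg a l; positivity

theorem volume_zonoL_one (l : List (Fin 1 → ℝ)) : volume (zonoL l) = ENNReal.ofReal (2 * S1 l) := by
  induction l with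
  | nil => simp [zonoL, S1]
  | cons a l ih =>
    by_cases ha : a 0 = 0
    · have h0 : a = 0 := by
        funext i
        fin_cases i
        exact ha
      subst h0
      rw [zonoL_zero_cons, ih]
      simp [S1]
    · have hdet : (Matrix.of fun (_ _ : Fin 1) => a 0).det = a 0 := by
        simp [Matrix.det_unique]
      have hmv : (Matrix.of fun (_ _ : Fin 1) => a 0) *ᵥ e0 0 = a := by
        funext i
        fin_cases i
        simp [Matrix.mulVec, dotProduct, e0]
      have h := volume_zonoL_cons_of_matrix (Matrix.of fun (_ _ : Fin 1) => a 0)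
        (by rw [hdet]; exact ha) a hmv l
      have huniv : ∀ S : Set (Fin 0 → ℝ), (0 : Fin 0 → ℝ) ∈ S → volume S = 1 := by
        intro S hS
        have : S = univ := Subsingleton.eq_univ_of_nonempty ⟨0, hS⟩
        rw [this]
        simp [volume_pi]
      rw [h, ih, huniv _ (zero_mem_zonoL _), hdet, mul_one, S1, mul_add,
        ENNReal.ofReal_add (by positivity) (by have := S1_nonneg l; positivity), add_comm]
      congr 1
      rw [ENNReal.ofReal_mul (by norm_num)]
      simp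

/-! ### Dimension two -/

theorem det2_mulVec (M : Matrix (Fin 2) (Fin 2) ℝ) (x y : Fin 2 → ℝ) :
    det2 (M *ᵥ x) (M *ᵥ y) = M.det * det2 x y := by
  simp only [det2, Matrix.det_fin_two, Matrix.mulVec, dotProduct, Fin.sum_univ_two]
  ring

theorem exists_matrix_two (a : Fin 2 → ℝ) (ha : a ≠ 0) :
    ∃ M : Matrix (Fin 2) (Fin 2) ℝ, M.det ≠ 0 ∧ M *ᵥ e0 1 = a := by
  by_cases h0 : a 0 = 0
  · have h1 : a 1 ≠ 0 := by
      intro h1; apply ha; funext i; fin_cases i <;> simp [h0, h1]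
    refine ⟨!![a 0, 1; a 1, 0], ?_, ?_⟩
    · simp [Matrix.det_fin_two, h1]
    · funext i; fin_cases i <;> simp [Matrix.mulVec, dotProduct, e0, Fin.sum_univ_two]
  · refine ⟨!![a 0, 0; a 1, 1], ?_, ?_⟩
    · simp [Matrix.det_fin_two, h0]
    · funext i; fin_cases i <;> simp [Matrix.mulVec, dotProduct, e0, Fin.sum_univ_two]

theorem mulVec_inv_cancel {n : ℕ} {M : Matrix (Fin n) (Fin n) ℝ} (hM : M.det ≠ 0)
    (b : Fin n → ℝ) : M *ᵥ (M⁻¹ *ᵥ b) = b := by
  rw [Matrix.mulVec_mulVec, Matrix.mul_nonsing_inv M (isUnit_iff_ne_zero.mpr hM),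
    Matrix.one_mulVec]

theorem term2 {M : Matrix (Fin 2) (Fin 2) ℝ} (hM : M.det ≠ 0) {a : Fin 2 → ℝ}
    (ha : M *ᵥ e0 1 = a) (b : Fin 2 → ℝ) :
    |M.det| * |tailL 1 (M⁻¹ *ᵥ b) 0| = |det2 a b| := by
  rw [← abs_mul, ← ha]
  conv_rhs => rw [← mulVec_inv_cancel hM b, det2_mulVec]
  congr 1
  simp [det2, e0, tailL_apply]

theorem sum_S1_map {M : Matrix (Fin 2) (Fin 2) ℝ} (hM : M.det ≠ 0) {a : Fin 2 → ℝ}
    (ha : M *ᵥ e0 1 = a) (l : List (Fin 2 → ℝ)) :
    |M.det| * S1 (l.map (fun b => tailL 1 (M⁻¹ *ᵥ b))) = (l.map fun b => |det2 a b|).sum := by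
  induction l with
  | nil => simp [S1]
  | cons b l ih =>
    simp only [List.map_cons, S1, List.sum_cons, mul_add, ih, term2 hM ha]

theorem volume_zonoL_two (l : List (Fin 2 → ℝ)) : volume (zonoL l) = ENNReal.ofReal (4 * S2 l) := by
  induction l with
  | nil => simp [zonoL, S2]
  | cons a l ih =>
    by_cases ha : a = 0
    · subst ha
      rw [zonoL_zero_cons, ih]
      congr 2
      simp [S2, det2]
    · obtain ⟨M, hM, hMa⟩ := exists_matrix_two a ha
      rw [volume_zonoL_cons_of_matrix M hM a hMa l, ih, volume_zonoL_one,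
        ← ENNReal.ofReal_mul (abs_nonneg _)]
      have e : |M.det| * (2 * S1 (l.map (fun b => tailL 1 (M⁻¹ *ᵥ b)))) =
          2 * (l.map fun b => |det2 a b|).sum := by
        rw [← sum_S1_map hM hMa l]; ring
      rw [e, show (2 : ENNReal) = ENNReal.ofReal 2 by simp, ← ENNReal.ofReal_mul (by norm_num),
        ← ENNReal.ofReal_add (by have := S2_nonneg l; positivity)
          (by have := sum_abs_nonneg (det2 a) l; positivity)]
      congr 1
      simp only [S2]
      ring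

/-! ### Dimension three -/

theorem det3_mulVec (M : Matrix (Fin 3) (Fin 3) ℝ) (x y z : Fin 3 → ℝ) :
    det3 (M *ᵥ x) (M *ᵥ y) (M *ᵥ z) = M.det * det3 x y z := by
  simp only [det3, Matrix.det_fin_three, Matrix.mulVec, dotProduct, Fin.sum_univ_three]
  ring

theorem exists_matrix_three (a : Fin 3 → ℝ) (ha : a ≠ 0) :
    ∃ M : Matrix (Fin 3) (Fin 3) ℝ, M.det ≠ 0 ∧ M *ᵥ e0 2 = a := by
  by_cases h0 : a 0 = 0
  · by_cases h1 : a 1 = 0
    · have h2 : a 2 ≠ 0 := by
        intro h2; apply ha; funext i; fin_cases i <;> simp [h0, h1, h2]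
      refine ⟨!![a 0, 1, 0; a 1, 0, 1; a 2, 0, 0], ?_, ?_⟩
      · simp [Matrix.det_fin_three, h2]
      · funext i; fin_cases i <;> simp [Matrix.mulVec, dotProduct, e0, Fin.sum_univ_three]
    · refine ⟨!![a 0, 1, 0; a 1, 0, 0; a 2, 0, 1], ?_, ?_⟩
      · simp [Matrix.det_fin_three, h1]
      · funext i; fin_cases i <;> simp [Matrix.mulVec, dotProduct, e0, Fin.sum_univ_three]
  · refine ⟨!![a 0, 0, 0; a 1, 1, 0; a 2, 0, 1], ?_, ?_⟩
    · simp [Matrix.det_fin_three, h0]
    · funext i; fin_cases i <;> simp [Matrix.mulVec, dotProduct, e0, Fin.sum_univ_three]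

theorem term3 {M : Matrix (Fin 3) (Fin 3) ℝ} (hM : M.det ≠ 0) {a : Fin 3 → ℝ}
    (ha : M *ᵥ e0 2 = a) (b c : Fin 3 → ℝ) :
    |M.det| * |det2 (tailL 2 (M⁻¹ *ᵥ b)) (tailL 2 (M⁻¹ *ᵥ c))| = |det3 a b c| := by
  rw [← abs_mul, ← ha]
  conv_rhs => rw [← mulVec_inv_cancel hM b, ← mulVec_inv_cancel hM c, det3_mulVec]
  congr 1
  simp [det2, det3, e0, tailL_apply]

theorem sum_term3 {M : Matrix (Fin 3) (Fin 3) ℝ} (hM : M.det ≠ 0) {a : Fin 3 → ℝ}
    (ha : M *ᵥ e0 2 = a) (b : Fin 3 → ℝ) (l : List (Fin 3 → ℝ)) :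
    |M.det| * ((l.map (fun c => tailL 2 (M⁻¹ *ᵥ c))).map
        (fun y => |det2 (tailL 2 (M⁻¹ *ᵥ b)) y|)).sum = (l.map fun c => |det3 a b c|).sum := by
  induction l with
  | nil => simp
  | cons c l ih =>
    simp only [List.map_cons, List.sum_cons, mul_add, ih, term3 hM ha]

theorem sum_S2_map {M : Matrix (Fin 3) (Fin 3) ℝ} (hM : M.det ≠ 0) {a : Fin 3 → ℝ}
    (ha : M *ᵥ e0 2 = a) (l : List (Fin 3 → ℝ)) :
    |M.det| * S2 (l.map (fun b => tailL 2 (M⁻¹ *ᵥ b))) = P3 a l := by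
  induction l with
  | nil => simp [S2, P3]
  | cons b l ih =>
    simp only [List.map_cons, S2, P3, mul_add, ih, sum_term3 hM ha]

theorem P3_zero (l : List (Fin 3 → ℝ)) : P3 0 l = 0 := by
  induction l with
  | nil => simp [P3]
  | cons b l ih => simp [P3, ih, det3]

theorem volume_zonoL_three (l : List (Fin 3 → ℝ)) :
    volume (zonoL l) = ENNReal.ofReal (8 * S3 l) := by
  induction l with
  | nil => simp [zonoL, S3]
  | cons a l ih =>
    by_cases ha : a = 0
    · subst ha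
      rw [zonoL_zero_cons, ih]
      congr 2
      simp [S3, P3_zero]
    · obtain ⟨M, hM, hMa⟩ := exists_matrix_three a ha
      rw [volume_zonoL_cons_of_matrix M hM a hMa l, ih, volume_zonoL_two,
        ← ENNReal.ofReal_mul (abs_nonneg _)]
      have e : |M.det| * (4 * S2 (l.map (fun b => tailL 2 (M⁻¹ *ᵥ b)))) = 4 * P3 a l := by
        rw [← sum_S2_map hM hMa l]; ring
      rw [e, show (2 : ENNReal) = ENNReal.ofReal 2 by simp, ← ENNReal.ofReal_mul (by norm_num),
        ← ENNReal.ofReal_add (by have := S3_nonneg l; positivity)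
          (by have := P3_nonneg a l; positivity)]
      congr 1
      simp only [S3]
      ring

end Vale.Agent.H64
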