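import Vale.Agent.H64.Petty.Support
import Vale.Agent.H64.Petty.ZonoVol

/-!
The projection body of a zonotope in Euclidean 3-space is the zonotope generated by the vectors
`4 • (vᵢ × vⱼ)`, `i < j`; volumes of both bodies.
-/

namespace Vale.Agent.H64

open Set MeasureTheory Module

/-- Euclidean 3-space. -/
abbrev E3 := EuclideanSpace ℝ (Fin 3)

/-- The dot product on `ℝ^3`. -/
def dot3 (a b : Fin 3 → ℝ) : ℝ := a 0 * b 0 + a 1 * b 1 + a 2 * b 2

theorem inner_eq_dot3 (x y : E3) : inner ℝ x y = dot3 (WithLp.ofLp x) (WithLp.ofLp y) := by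
  simp [PiLp.inner_apply, Fin.sum_univ_three, dot3]; ring

/-- The list of cross products `aᵢ × aⱼ`, `i < j`, in lexicographic order. -/
def pairsL : List (Fin 3 → ℝ) → List (Fin 3 → ℝ)
  | [] => []
  | a :: l => l.map (cr3 a) ++ pairsL l

/-- Key computation: if `p, q` are orthonormal and orthogonal to `w`, `N = ‖w‖`, then the
`2 × 2` minor of the `(p, q)`-coordinates of `x, y` is, up to the factor `N`, the triple product
`w · (x × y)`. -/
theorem term_proj (p q w : Fin 3 → ℝ) (N : ℝ) (hN : 0 ≤ N) (hNN : N ^ 2 = dot3 w w)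
    (hpp : dot3 p p = 1) (hqq : dot3 q q = 1) (hpq : dot3 p q = 0) (hpw : dot3 p w = 0)
    (hqw : dot3 q w = 0) (x y : Fin 3 → ℝ) :
    N * |det2 ![dot3 p x, dot3 q x] ![dot3 p y, dot3 q y]| = |dot3 w (cr3 x y)| := by
  have h1 : det2 ![dot3 p x, dot3 q x] ![dot3 p y, dot3 q y] = dot3 (cr3 p q) (cr3 x y) := by
    simp only [det2, dot3, cr3_0, cr3_1, cr3_2, Matrix.cons_val_zero, Matrix.cons_val_one]
    ring
  have h2 : dot3 (cr3 p q) (cr3 p q) = 1 := by
    have e : dot3 (cr3 p q) (cr3 p q) = dot3 p p * dot3 q q - dot3 p q ^ 2 := by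
      simp only [dot3, cr3_0, cr3_1, cr3_2]; ring
    rw [e, hpp, hqq, hpq]; norm_num
  have h3 : ∀ z : Fin 3 → ℝ, dot3 w z = dot3 w (cr3 p q) * dot3 (cr3 p q) z := by
    intro z
    have e : dot3 (cr3 p q) (cr3 p q) * dot3 w z =
        dot3 p w * dot3 (cr3 q (cr3 p q)) z + dot3 q w * dot3 (cr3 (cr3 p q) p) z +
          dot3 w (cr3 p q) * dot3 (cr3 p q) z := by
      simp only [dot3, cr3_0, cr3_1, cr3_2]; ring
    rw [h2, hpw, hqw] at e
    linarith
  have h4 : N ^ 2 = dot3 w (cr3 p q) ^ 2 := by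
    rw [hNN, h3 w]
    have e : dot3 (cr3 p q) w = dot3 w (cr3 p q) := by simp only [dot3]; ring
    rw [e]; ring
  have h5 : N = |dot3 w (cr3 p q)| := by
    rw [← abs_of_nonneg hN]
    exact (sq_eq_sq_iff_abs_eq_abs _ _).mp h4
  rw [h3 (cr3 x y), abs_mul, h1, h5]

theorem sum_term_proj (p q w : Fin 3 → ℝ) (N : ℝ) (hN : 0 ≤ N) (hNN : N ^ 2 = dot3 w w)
    (hpp : dot3 p p = 1) (hqq : dot3 q q = 1) (hpq : dot3 p q = 0) (hpw : dot3 p w = 0)
    (hqw : dot3 q w = 0) (a : Fin 3 → ℝ) (l : List (Fin 3 → ℝ)) :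
    N * ((l.map (fun x => ![dot3 p x, dot3 q x])).map
        (fun b => |det2 ![dot3 p a, dot3 q a] b|)).sum =
      ((l.map (cr3 a)).map (fun z => |dot3 w z|)).sum := by
  induction l with
  | nil => simp
  | cons c l ih =>
    simp only [List.map_cons, List.sum_cons, mul_add, ih,
      term_proj p q w N hN hNN hpp hqq hpq hpw hqw a c]

theorem sum_proj (p q w : Fin 3 → ℝ) (N : ℝ) (hN : 0 ≤ N) (hNN : N ^ 2 = dot3 w w)
    (hpp : dot3 p p = 1) (hqq : dot3 q q = 1) (hpq : dot3 p q = 0) (hpw : dot3 p w = 0)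
    (hqw : dot3 q w = 0) (l : List (Fin 3 → ℝ)) :
    N * S2 (l.map (fun x => ![dot3 p x, dot3 q x])) =
      ((pairsL l).map (fun z => |dot3 w z|)).sum := by
  induction l with
  | nil => simp [S2, pairsL]
  | cons a l ih =>
    simp only [List.map_cons, S2, pairsL, List.map_append, List.sum_append, mul_add, ih,
      sum_term_proj p q w N hN hNN hpp hqq hpq hpw hqw a l]

theorem volume_image_of_measurePreserving {α β : Type*} [MeasureSpace α] [MeasureSpace β]
    (e : α ≃ᵐ β) (h : MeasurePreserving e volume volume) (S : Set α) :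
    volume (e '' S) = volume S := by
  rw [← h.measure_preimage_equiv (e '' S), e.injective.preimage_image]

theorem volume_image_ofLp {n : ℕ} (S : Set (EuclideanSpace ℝ (Fin n))) :
    volume (WithLp.ofLp '' S) = volume S :=
  volume_image_of_measurePreserving (MeasurableEquiv.toLp 2 (Fin n → ℝ)).symm
    (EuclideanSpace.volume_preserving_symm_measurableEquiv_toLp (Fin n)) S

/-- The area of the projection of a zonotope onto the plane `u^⊥`, in a three-dimensional
inner product space with orthonormal coordinates `c`. -/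
theorem projVolume_zonoL {E : Type*} [NormedAddCommGroup E] [InnerProductSpace ℝ E]
    [FiniteDimensional ℝ E] [MeasurableSpace E] [BorelSpace E] (c : E ≃ₗ[ℝ] (Fin 3 → ℝ))
    (hc : ∀ x y : E, inner ℝ x y = dot3 (c x) (c y)) (l : List E) (u : E) (hu : u ≠ 0) :
    ‖u‖ * (projVolume (zonoL l) u).toReal =
      4 * ((pairsL (l.map c)).map (fun z => |dot3 (c u) z|)).sum := by
  have hfact : Fact (finrank ℝ E = 2 + 1) := ⟨by rw [LinearEquiv.finrank_eq c]; simp⟩
  let b := OrthonormalBasis.fromOrthogonalSpanSingleton (𝕜 := ℝ) 2 hu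
  have h5 : ∀ i j, inner ℝ ((b i : (ℝ ∙ u)ᗮ) : E) ((b j : (ℝ ∙ u)ᗮ) : E) =
      if i = j then 1 else 0 := by
    intro i j
    rw [← Submodule.coe_inner]
    exact (orthonormal_iff_ite.mp b.orthonormal) i j
  have h6 : ∀ i, inner ℝ ((b i : (ℝ ∙ u)ᗮ) : E) u = 0 := by
    intro i
    exact (Submodule.mem_orthogonal_singleton_iff_inner_left).mp (b i).2
  have h7 : ∀ (x : E) i, b.repr ((ℝ ∙ u)ᗮ.orthogonalProjectionOnto x) i =
      inner ℝ ((b i : (ℝ ∙ u)ᗮ) : E) x := by
    intro x i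
    rw [OrthonormalBasis.repr_apply_apply, Submodule.inner_orthogonalProjectionOnto_eq_of_mem_left]
  set p : Fin 3 → ℝ := c ((b 0 : (ℝ ∙ u)ᗮ) : E) with hp
  set q : Fin 3 → ℝ := c ((b 1 : (ℝ ∙ u)ᗮ) : E) with hq
  let G : E →ₗ[ℝ] (Fin 2 → ℝ) :=
    (WithLp.linearEquiv 2 ℝ (Fin 2 → ℝ)).toLinearMap ∘ₗ b.repr.toLinearEquiv.toLinearMap ∘ₗ
      ((ℝ ∙ u)ᗮ.orthogonalProjectionOnto).toLinearMap
  have hG : ∀ x : E, G x = ![dot3 p (c x), dot3 q (c x)] := by
    intro x
    funext i
    have : G x i = b.repr ((ℝ ∙ u)ᗮ.orthogonalProjectionOnto x) i := rfl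
    rw [this, h7, hc]
    fin_cases i <;> rfl
  have hvol : projVolume (zonoL l) u = volume (G '' zonoL l) := by
    unfold projVolume
    rw [← volume_image_of_measurePreserving b.measurableEquiv b.measurePreserving_measurableEquiv,
      ← volume_image_ofLp, image_image, image_image]
    rfl
  have hmap : l.map G = (l.map c).map (fun x => ![dot3 p x, dot3 q x]) := by
    rw [List.map_map]
    apply List.map_congr_left
    intro x _
    exact hG x
  rw [hvol, zonoL_map, volume_zonoL_two, ENNReal.toReal_ofReal (by have := S2_nonneg (l.map G); positivity),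
    hmap]
  have hN : ‖u‖ ^ 2 = dot3 (c u) (c u) := by
    rw [← hc, real_inner_self_eq_norm_sq]
  have hpp : dot3 p p = 1 := by rw [hp, ← hc, h5]; simp
  have hqq : dot3 q q = 1 := by rw [hq, ← hc, h5]; simp
  have hpq : dot3 p q = 0 := by rw [hp, hq, ← hc, h5]; simp
  have hpw : dot3 p (c u) = 0 := by rw [hp, ← hc, h6]
  have hqw : dot3 q (c u) = 0 := by rw [hq, ← hc, h6]
  rw [← sum_proj p q (c u) ‖u‖ (norm_nonneg u) hN hpp hqq hpq hpw hqw]
  ring

/-- Orthonormal coordinates on a three-dimensional real inner product space. -/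
theorem exists_coords {E : Type*} [NormedAddCommGroup E] [InnerProductSpace ℝ E]
    [FiniteDimensional ℝ E] [MeasurableSpace E] [BorelSpace E] (h : finrank ℝ E = 3) :
    ∃ c : E ≃ₗ[ℝ] (Fin 3 → ℝ), (∀ x y : E, inner ℝ x y = dot3 (c x) (c y)) ∧
      ∀ S : Set E, volume (c '' S) = volume S := by
  let b : OrthonormalBasis (Fin 3) ℝ E := (stdOrthonormalBasis ℝ E).reindex (finCongr h)
  refine ⟨b.repr.toLinearEquiv.trans (WithLp.linearEquiv 2 ℝ (Fin 3 → ℝ)), ?_, ?_⟩
  · intro x y
    rw [← b.repr.inner_map_map x y, inner_eq_dot3]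
    rfl
  · intro S
    have e : (b.repr.toLinearEquiv.trans (WithLp.linearEquiv 2 ℝ (Fin 3 → ℝ))) '' S =
        WithLp.ofLp '' (b.measurableEquiv '' S) := by
      rw [image_image]
      rfl
    rw [e, volume_image_ofLp,
      volume_image_of_measurePreserving b.measurableEquiv b.measurePreserving_measurableEquiv]

end Vale.Agent.H64
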