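import Mathlib

/-!
Zonotopes generated by a list of vectors: basic facts (linear images, convexity, compactness).
-/

namespace Vale.Agent.H64

open Set

section general

variable {V W : Type*} [AddCommGroup V] [Module ℝ V] [AddCommGroup W] [Module ℝ W]

/-- The zonotope generated by a list of vectors: the Minkowski sum of the segments `[-a, a]`. -/
def zonoL : List V → Set V
  | [] => {0}
  | a :: l => {x | ∃ t : ℝ, |t| ≤ 1 ∧ ∃ y ∈ zonoL l, x = t • a + y}

/-- The zonotope `∑ᵢ [-vᵢ, vᵢ]` generated by a finite family of vectors `v`: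
all the points `∑ᵢ tᵢ • vᵢ` with `|tᵢ| ≤ 1`. -/
def zonotope {ι V : Type*} [Fintype ι] [AddCommGroup V] [Module ℝ V] (v : ι → V) : Set V :=
  {x | ∃ t : ι → ℝ, (∀ i, |t i| ≤ 1) ∧ x = ∑ i, t i • v i}

theorem zonoL_nil : zonoL ([] : List V) = {0} := rfl

theorem mem_zonoL_cons {a : V} {l : List V} {x : V} :
    x ∈ zonoL (a :: l) ↔ ∃ t : ℝ, |t| ≤ 1 ∧ ∃ y ∈ zonoL l, x = t • a + y := Iff.rfl

theorem zero_mem_zonoL (l : List V) : (0 : V) ∈ zonoL l := by
  induction l with
  | nil => simp [zonoL]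
  | cons a l ih => exact ⟨0, by simp, 0, ih, by simp⟩

theorem zonoL_map (f : V →ₗ[ℝ] W) (l : List V) : f '' zonoL l = zonoL (l.map f) := by
  induction l with
  | nil => simp [zonoL]
  | cons a l ih =>
    ext x
    simp only [List.map_cons, mem_zonoL_cons, mem_image]
    constructor
    · rintro ⟨z, ⟨t, ht, y, hy, rfl⟩, rfl⟩
      refine ⟨t, ht, f y, ?_, by simp⟩
      rw [← ih]; exact ⟨y, hy, rfl⟩
    · rintro ⟨t, ht, y, hy, rfl⟩
      rw [← ih] at hy
      obtain ⟨z, hz, rfl⟩ := hy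
      exact ⟨t • a + z, ⟨t, ht, z, hz, rfl⟩, by simp⟩

theorem zonoL_convex (l : List V) : Convex ℝ (zonoL l) := by
  induction l with
  | nil => simpa [zonoL] using convex_singleton (0 : V)
  | cons a l ih =>
    rintro x ⟨t, ht, y, hy, rfl⟩ x' ⟨t', ht', y', hy', rfl⟩ p q hp hq hpq
    refine ⟨p * t + q * t', ?_, p • y + q • y', ih hy hy' hp hq hpq, ?_⟩
    · have h1 := abs_le.mp ht
      have h2 := abs_le.mp ht'
      rw [abs_le]
      constructor <;> nlinarith
    · simp only [smul_add, add_smul, smul_smul]; abel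

theorem zonoL_zero_cons (l : List V) : zonoL ((0 : V) :: l) = zonoL l := by
  ext x
  simp only [mem_zonoL_cons, smul_zero, zero_add]
  constructor
  · rintro ⟨t, -, y, hy, rfl⟩; exact hy
  · intro hx; exact ⟨0, by simp, x, hx, rfl⟩

end general

section topo

variable {V : Type*} [AddCommGroup V] [Module ℝ V] [TopologicalSpace V] [IsTopologicalAddGroup V]
  [ContinuousSMul ℝ V]

theorem zonoL_isCompact (l : List V) : IsCompact (zonoL l) := by
  induction l with
  | nil => simp [zonoL]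
  | cons a l ih =>
    have h : zonoL (a :: l) = (fun p : ℝ × V => p.1 • a + p.2) '' (Icc (-1 : ℝ) 1 ×ˢ zonoL l) := by
      ext x
      simp only [mem_zonoL_cons, mem_image, mem_prod, mem_Icc, Prod.exists]
      constructor
      · rintro ⟨t, ht, y, hy, rfl⟩
        exact ⟨t, y, ⟨abs_le.mp ht, hy⟩, rfl⟩
      · rintro ⟨t, y, ⟨ht, hy⟩, rfl⟩
        exact ⟨t, abs_le.mpr ht, y, hy, rfl⟩
    rw [h]
    exact (isCompact_Icc.prod ih).image (by fun_prop)

end topo

end Vale.Agent.H64
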