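import Vale.Agent.H64.Petty.Defs
import Vale.Agent.H64.Petty.Zono

/-!
A zonotope given by a family indexed by `Fin n` is the list zonotope, and a zonotope in an inner
product space is characterised by its support function `u ↦ ∑ |⟪u, g⟫|`.
-/

namespace Vale.Agent.H64

open Set

theorem zonotope_eq_zonoL {V : Type*} [AddCommGroup V] [Module ℝ V] :
    ∀ (n : ℕ) (v : Fin n → V), zonotope v = zonoL (List.ofFn v) := by
  intro n
  induction n with
  | zero =>
    intro v
    ext x
    simp [zonotope, zonoL]
  | succ n ih =>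
    intro v
    ext x
    rw [List.ofFn_succ, mem_zonoL_cons, ← ih]
    simp only [zonotope, mem_ofPred_eq]
    constructor
    · rintro ⟨t, ht, rfl⟩
      refine ⟨t 0, ht 0, ∑ i : Fin n, t i.succ • v i.succ, ⟨fun i => t i.succ, fun i => ht i.succ, rfl⟩, ?_⟩
      rw [Fin.sum_univ_succ]
    · rintro ⟨t0, ht0, y, ⟨t', ht', rfl⟩, rfl⟩
      refine ⟨Fin.cons t0 t', ?_, ?_⟩
      · intro i
        refine Fin.cases ?_ ?_ i
        · simpa using ht0
        · intro j; simpa using ht' j
      · rw [Fin.sum_univ_succ]
        simp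

section inner

variable {E : Type*} [NormedAddCommGroup E] [InnerProductSpace ℝ E]

theorem inner_le_of_mem_zonoL (l : List E) {x : E} (hx : x ∈ zonoL l) (u : E) :
    inner ℝ x u ≤ (l.map fun g => |inner ℝ u g|).sum := by
  induction l generalizing x with
  | nil =>
    simp only [zonoL_nil, mem_singleton_iff] at hx
    simp [hx]
  | cons a l ih =>
    obtain ⟨t, ht, y, hy, rfl⟩ := hx
    simp only [List.map_cons, List.sum_cons, inner_add_left, inner_smul_left]
    have h1 := ih hy
    have h2 : t * inner ℝ a u ≤ |inner ℝ u a| := by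
      rw [real_inner_comm a u]
      calc t * inner ℝ a u ≤ |t * inner ℝ a u| := le_abs_self _
        _ = |t| * |inner ℝ a u| := abs_mul _ _
        _ ≤ 1 * |inner ℝ a u| := mul_le_mul_of_nonneg_right ht (abs_nonneg _)
        _ = |inner ℝ a u| := one_mul _
    simpa using add_le_add h2 h1

theorem exists_mem_zonoL_inner_eq (l : List E) (u : E) :
    ∃ y ∈ zonoL l, inner ℝ y u = (l.map fun g => |inner ℝ u g|).sum := by
  induction l with
  | nil => exact ⟨0, by simp [zonoL_nil], by simp⟩
  | cons a l ih =>
    obtain ⟨y, hy, hyu⟩ := ih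
    by_cases h : 0 ≤ inner ℝ u a
    · refine ⟨(1 : ℝ) • a + y, ⟨1, by simp, y, hy, rfl⟩, ?_⟩
      simp only [List.map_cons, List.sum_cons, inner_add_left, inner_smul_left, hyu,
        abs_of_nonneg h, real_inner_comm u a]
      simp
    · refine ⟨(-1 : ℝ) • a + y, ⟨-1, by simp, y, hy, rfl⟩, ?_⟩
      have h' : inner ℝ u a < 0 := lt_of_not_ge h
      simp only [List.map_cons, List.sum_cons, inner_add_left, inner_smul_left, hyu,
        abs_of_neg h', real_inner_comm u a]
      simp

theorem zonoL_eq_support [FiniteDimensional ℝ E] (l : List E) :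
    {x : E | ∀ u : E, inner ℝ x u ≤ (l.map fun g => |inner ℝ u g|).sum} = zonoL l := by
  ext x
  simp only [mem_ofPred_eq]
  constructor
  · intro hx
    by_contra hne
    obtain ⟨f, s, hf, hs⟩ := geometric_hahn_banach_closed_point (zonoL_convex l)
      (zonoL_isCompact l).isClosed hne
    set w := (InnerProductSpace.toDual ℝ E).symm f with hw
    have hfw : ∀ z, f z = inner ℝ w z := fun z => (InnerProductSpace.toDual_symm_apply).symm
    obtain ⟨y, hy, hyw⟩ := exists_mem_zonoL_inner_eq l w
    have h1 := hf y hy
    have h2 := hx w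
    rw [hfw, real_inner_comm] at h1
    rw [hfw, real_inner_comm] at hs
    linarith
  · intro hx u
    exact inner_le_of_mem_zonoL l hx u

end inner

end Vale.Agent.H64
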